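import Vale.Agent.Lib.P007.Topo

open MeasureTheory Filter Topology

noncomputable section

namespace Vale.Agent.Lib.P007

variable {n : ℕ}

/-- The set of `g` such that the lattice `ℤⁿ g` is invariant under the diagonal matrix `diag D`:
equivalently `g diag(D) g⁻¹` is an integer matrix. -/
def invSet (D : Fin n → ℝ) : Set (SLR n) :=
  {g | ∃ N : Matrix (Fin n) (Fin n) ℤ,
    (g : Matrix (Fin n) (Fin n) ℝ) * Matrix.diagonal D =
      N.map (Int.castRingHom ℝ) * (g : Matrix (Fin n) (Fin n) ℝ)}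

lemma coe_inv_mul (g : SLR n) :
    ((g⁻¹ : SLR n) : Matrix (Fin n) (Fin n) ℝ) * (g : Matrix (Fin n) (Fin n) ℝ) = 1 := by
  rw [← Matrix.SpecialLinearGroup.coe_mul]; simp

lemma coe_mul_inv (g : SLR n) :
    (g : Matrix (Fin n) (Fin n) ℝ) * ((g⁻¹ : SLR n) : Matrix (Fin n) (Fin n) ℝ) = 1 := by
  rw [← Matrix.SpecialLinearGroup.coe_mul]; simp

lemma mem_invSet_iff (D : Fin n → ℝ) (g : SLR n) :
    g ∈ invSet D ↔ ∀ i j, ((g : Matrix (Fin n) (Fin n) ℝ) * Matrix.diagonal D *
      ((g⁻¹ : SLR n) : Matrix (Fin n) (Fin n) ℝ)) i j ∈ Set.range ((↑) : ℤ → ℝ) := by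
  constructor
  · rintro ⟨N, hN⟩ i j
    refine ⟨N i j, ?_⟩
    rw [hN, Matrix.mul_assoc, coe_mul_inv, Matrix.mul_one]
    simp
  · intro h
    choose N hN using h
    refine ⟨Matrix.of N, ?_⟩
    have h1 : (Matrix.of N).map (Int.castRingHom ℝ) =
        (g : Matrix (Fin n) (Fin n) ℝ) * Matrix.diagonal D *
          ((g⁻¹ : SLR n) : Matrix (Fin n) (Fin n) ℝ) := by
      ext i j
      simp [hN]
    rw [h1, Matrix.mul_assoc _ _ (g : Matrix (Fin n) (Fin n) ℝ), coe_inv_mul, Matrix.mul_one]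

lemma isClosed_invSet (D : Fin n → ℝ) : IsClosed (invSet D) := by
  have h : invSet D = ⋂ i, ⋂ j, {g : SLR n | ((g : Matrix (Fin n) (Fin n) ℝ) * Matrix.diagonal D *
      ((g⁻¹ : SLR n) : Matrix (Fin n) (Fin n) ℝ)) i j ∈ Set.range ((↑) : ℤ → ℝ)} := by
    ext g
    simp only [mem_invSet_iff, Set.mem_iInter, Set.mem_ofPred_eq]
  rw [h]
  refine isClosed_iInter fun i => isClosed_iInter fun j => ?_
  refine IsClosed.preimage ?_ Real.isClosedEmbedding_intCast.isClosed_range
  have hc1 : Continuous fun g : SLR n => (g : Matrix (Fin n) (Fin n) ℝ) := continuous_subtype_val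
  have hc2 : Continuous fun g : SLR n => ((g⁻¹ : SLR n) : Matrix (Fin n) (Fin n) ℝ) :=
    continuous_subtype_val.comp continuous_inv
  exact ((hc1.matrix_mul continuous_const).matrix_mul hc2).matrix_elem i j

/-- `invSet D` is invariant under left multiplication by `SL_n(ℤ)`. -/
lemma invSet_left_invariant (D : Fin n → ℝ) (γ : SLZ n) {g : SLR n} (hg : g ∈ invSet D) :
    (γ : SLR n) * g ∈ invSet D := by
  obtain ⟨_, z, rfl⟩ := γ
  obtain ⟨N, hN⟩ := hg
  have hzi : ((Matrix.SpecialLinearGroup.map (Int.castRingHom ℝ) z⁻¹ : SLR n) :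
      Matrix (Fin n) (Fin n) ℝ) * (Matrix.SpecialLinearGroup.map (Int.castRingHom ℝ) z : SLR n) = 1 := by
    rw [← Matrix.SpecialLinearGroup.coe_mul, ← map_mul]; simp
  refine ⟨(z : Matrix (Fin n) (Fin n) ℤ) * N * ((z⁻¹ : Matrix.SpecialLinearGroup (Fin n) ℤ) :
    Matrix (Fin n) (Fin n) ℤ), ?_⟩
  simp only [Matrix.SpecialLinearGroup.coe_mul]
  rw [Matrix.map_mul, Matrix.map_mul]
  have e1 : (z : Matrix (Fin n) (Fin n) ℤ).map (Int.castRingHom ℝ) =
      ((Matrix.SpecialLinearGroup.map (Int.castRingHom ℝ) z : SLR n) : Matrix (Fin n) (Fin n) ℝ) :=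
    rfl
  have e2 : ((z⁻¹ : Matrix.SpecialLinearGroup (Fin n) ℤ) : Matrix (Fin n) (Fin n) ℤ).map
      (Int.castRingHom ℝ) =
      ((Matrix.SpecialLinearGroup.map (Int.castRingHom ℝ) z⁻¹ : SLR n) : Matrix (Fin n) (Fin n) ℝ) :=
    rfl
  rw [e1, e2, Matrix.mul_assoc _ (g : Matrix (Fin n) (Fin n) ℝ), hN]
  simp only [Matrix.mul_assoc]
  rw [← Matrix.mul_assoc (Matrix.SpecialLinearGroup.map (Int.castRingHom ℝ) z⁻¹ : SLR n).1, hzi,
    Matrix.one_mul]

/-- The image of `invSet D` in `X_n`. -/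
def Zset (D : Fin n → ℝ) : Set (X n) := X.mk '' invSet D

lemma preimage_Zset (D : Fin n → ℝ) : X.mk ⁻¹' (Zset D) = invSet D := by
  ext g
  constructor
  · rintro ⟨g', hg', h⟩
    have h' : (MulAction.orbitRel (SLZ n) (SLR n)) g' g := Quotient.exact h
    obtain ⟨γ, hγ⟩ := h'
    have : g' = (γ : SLR n) * g := by
      rw [← hγ]; rfl
    have h3 : g = ((γ⁻¹ : SLZ n) : SLR n) * g' := by
      rw [this]; simp
    rw [h3]
    exact invSet_left_invariant D _ hg'
  · intro hg
    exact ⟨g, hg, rfl⟩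

lemma isClosed_Zset (D : Fin n → ℝ) : IsClosed (Zset D) := by
  rw [← (isOpenQuotientMap_mk (n := n)).isQuotientMap.isClosed_preimage, preimage_Zset]
  exact isClosed_invSet D

/-- If `D` is not scalar then `Zset D` is a proper subset of `X_n`. -/
lemma exists_notMem_invSet {D : Fin n → ℝ} {a b : Fin n} (hab : D a ≠ D b) :
    ∃ g : SLR n, g ∉ invSet D := by
  have hne : a ≠ b := fun h => hab (by rw [h])
  have hd : D b - D a ≠ 0 := sub_ne_zero.mpr (Ne.symm hab)
  let t : ℝ := 1 / (2 * (D b - D a))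
  refine ⟨⟨Matrix.transvection a b t, Matrix.det_transvection_of_ne a b hne t⟩, ?_⟩
  rintro ⟨N, hN⟩
  simp only at hN
  have e1 := congrFun (congrFun hN a) a
  have e2 := congrFun (congrFun hN a) b
  simp only [Matrix.transvection, Matrix.mul_add, Matrix.mul_one, Matrix.add_apply,
    Matrix.mul_diagonal, Matrix.one_apply, Matrix.map_apply] at e1 e2
  rw [Matrix.mul_single_apply_of_ne t a b a a hne] at e1
  rw [Matrix.mul_single_apply_same] at e2
  simp [hne, hne.symm, Matrix.single] at e1 e2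
  have e3 : ((N a b : ℤ) : ℝ) = 1 / 2 := by
    have h1 : (D b - D a) * t = 1 / 2 := by
      simp only [t]; field_simp
    have h2 : (D b - D a) * t = t * D b - D a * t := by ring
    rw [← e1] at e2
    linarith
  have e4 : (2 : ℝ) * (N a b : ℤ) = 1 := by rw [e3]; norm_num
  have e5 : (2 : ℤ) * N a b = 1 := by exact_mod_cast e4
  omega

/-- A test function: a compactly supported non-negative continuous function, vanishing on `Zset D`,
positive somewhere. -/
lemma exists_test_function {D : Fin n → ℝ} {a b : Fin n} (hab : D a ≠ D b) :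
    ∃ f : CompactlySupportedContinuousMap (X n) ℝ, (∀ x, 0 ≤ f x) ∧ (∀ x ∈ Zset D, f x = 0) ∧
      ∃ x, f x ≠ 0 := by
  obtain ⟨g, hg⟩ := exists_notMem_invSet hab
  have hx : X.mk g ∉ Zset D := by
    intro h
    have : g ∈ X.mk ⁻¹' (Zset D) := h
    rw [preimage_Zset] at this
    exact hg this
  obtain ⟨f, hf1, hfc, hfs, hf01⟩ := exists_continuousMap_one_of_isCompact_subset_isOpen
    (isCompact_singleton (x := X.mk g)) (isClosed_Zset D).isOpen_compl
    (Set.singleton_subset_iff.mpr hx)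
  refine ⟨⟨f, hfc⟩, fun x => (hf01 x).1, ?_, ⟨X.mk g, ?_⟩⟩
  · intro x hx'
    by_contra hne
    exact hfs (subset_tsupport f hne) hx'
  · have := hf1 (Set.mem_singleton (X.mk g))
    simp only [Pi.one_apply] at this
    change f (X.mk g) ≠ 0
    rw [this]
    exact one_ne_zero

/-- **Non-convergence criterion.** If infinitely many of the measures `μ i` are carried by
`Zset D` with `D` not scalar, the `μ i` do not converge vaguely to an invariant probability
measure. -/
theorem not_tendsto_of_frequently {D : Fin n → ℝ} {a b : Fin n} (hab : D a ≠ D b)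
    {μ : ℕ → Measure (X n)} (hfreq : ∃ᶠ i in atTop, ∀ᵐ x ∂(μ i), x ∈ Zset D)
    {m : Measure (X n)} [IsProbabilityMeasure m] (hm : IsInvariant m) :
    ¬ ∀ f : CompactlySupportedContinuousMap (X n) ℝ,
      Tendsto (fun i => ∫ x, f x ∂(μ i)) atTop (𝓝 (∫ x, f x ∂m)) := by
  intro hconv
  obtain ⟨f, hf0, hfZ, x, hx⟩ := exists_test_function hab
  have hcont : Continuous f := f.continuous
  have hint : Integrable (fun x => f x) m := by
    refine hcont.integrable_of_hasCompactSupport f.hasCompactSupport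
  have hpos : 0 < ∫ x, f x ∂m := by
    rw [integral_pos_iff_support_of_nonneg (fun x => hf0 x) hint]
    exact pos_of_isOpen hm (hcont.isOpen_support) ⟨x, hx⟩
  have hlim := hconv f
  have hev := hlim.eventually (lt_mem_nhds hpos)
  have hfreq2 : ∃ᶠ i in atTop, ∫ x, f x ∂(μ i) = 0 := by
    refine hfreq.mono fun i hi => ?_
    refine integral_eq_zero_of_ae ?_
    filter_upwards [hi] with x hx'
    exact hfZ x hx'
  obtain ⟨i, hi1, hi2⟩ := (hfreq2.and_eventually hev).exists
  rw [hi1] at hi2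
  exact lt_irrefl _ hi2

end Vale.Agent.Lib.P007
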