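import Mathlib

open MeasureTheory Filter Topology

noncomputable section

namespace Vale.Agent.Lib.P007

/-- The group `SL_n(ℝ)`. -/
abbrev SLR (n : ℕ) := Matrix.SpecialLinearGroup (Fin n) ℝ

/-- The image of `SL_n(ℤ)` in `SL_n(ℝ)`. -/
abbrev SLZ (n : ℕ) : Subgroup (SLR n) :=
  (Matrix.SpecialLinearGroup.map (n := Fin n) (Int.castRingHom ℝ)).range

/-- The space `X_n = SL_n(ℤ)\SL_n(ℝ)`: the quotient of `SL_n(ℝ)` by left multiplication by
`SL_n(ℤ)`. -/
def X (n : ℕ) : Type := _root_.Quotient (MulAction.orbitRel (SLZ n) (SLR n))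

/-- The projection `SL_n(ℝ) → X_n`. -/
def X.mk {n : ℕ} (g : SLR n) : X n := _root_.Quotient.mk (MulAction.orbitRel (SLZ n) (SLR n)) g

/-- `X_n` carries the quotient topology. -/
instance (n : ℕ) : TopologicalSpace (X n) :=
  inferInstanceAs (TopologicalSpace (_root_.Quotient (MulAction.orbitRel (SLZ n) (SLR n))))

/-- `X_n` carries its Borel `σ`-algebra. -/
instance (n : ℕ) : MeasurableSpace (X n) := borel (X n)

instance (n : ℕ) : BorelSpace (X n) := ⟨rfl⟩

/-- Right translation by `h ∈ SL_n(ℝ)` on `X_n`: the class of `g` goes to the class of `g h`. -/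
def X.rightMul {n : ℕ} (h : SLR n) : X n → X n :=
  _root_.Quotient.map (fun g => g * h) (by
    rintro a b ⟨γ, rfl⟩
    exact ⟨γ, by simp [Subgroup.smul_def, mul_assoc]⟩)

/-- A measure on `X_n` is `SL_n(ℝ)`-invariant if all right translations preserve it. -/
def IsInvariant {n : ℕ} (m : Measure (X n)) : Prop :=
  ∀ h : SLR n, Measure.map (X.rightMul h) m = m

/-- The `ℤ`-span of the rows of `g`, i.e. the lattice `ℤⁿ g` (row vectors). -/
def rowLattice {n : ℕ} (g : SLR n) : Submodule ℤ (Fin n → ℝ) :=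
  Submodule.span ℤ (Set.range fun i => (g : Matrix (Fin n) (Fin n) ℝ) i)

section Fields

variable {K : Type} [Field K] {n : ℕ}

/-- The lattice `σ(I) ⊆ ℝⁿ` of a fractional ideal `I` of a subring `O` of `K`, where
`σ(x) = (σ_1 x, …, σ_n x)`. -/
def idealLattice (σ : Fin n → K →+* ℝ) {O : Subring K}
    (I : FractionalIdeal (nonZeroDivisors O) K) : Submodule ℤ (Fin n → ℝ) where
  carrier := {v | ∃ y ∈ I, ∀ j, v j = σ j y}
  add_mem' := by
    rintro _ _ ⟨y, hy, h⟩ ⟨z, hz, h'⟩
    exact ⟨y + z, (I : Submodule O K).add_mem hy hz, fun j => by simp [h, h']⟩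
  zero_mem' := ⟨0, (I : Submodule O K).zero_mem, fun j => by simp⟩
  smul_mem' := by
    rintro c _ ⟨y, hy, h⟩
    refine ⟨c • y, ?_, fun j => by simp [h]⟩
    exact (I : Submodule O K).toAddSubgroup.zsmul_mem hy c

/-- The scaling factor `covol(σ(I))^(-1/n)`, which gives `Λ_I = covol(σ(I))^(-1/n) σ(I)`
covolume one. -/
def covolFactor (σ : Fin n → K →+* ℝ) {O : Subring K}
    (I : FractionalIdeal (nonZeroDivisors O) K) : ℝ :=
  ZLattice.covolume (idealLattice σ I) ^ (-(1 : ℝ) / n)

/-- The union, inside `X_n`, of the orbits `Λ_I w A_n` of the packet of `(O, σ)`: the points of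
`X_n` whose lattice is `Λ_I w a`, for an invertible fractional ideal `I` of `O`, signs
`w = diag(w_j)`, and `a = diag(exp(u_j))` in `A_n`, that is with `∑ u_j = 0`.  Every invertible
fractional ideal is allowed, not only one representative per class: replacing `I` by `α I` only
changes `w` and `a`, so this is the same union of orbits. -/
def packetOrbits (σ : Fin n → K →+* ℝ) (O : Subring K) : Set (X n) :=
  {x | ∃ g : SLR n, X.mk g = x ∧
    ∃ (I : (FractionalIdeal (nonZeroDivisors O) K)ˣ) (w : Fin n → ℤˣ) (u : Fin n → ℝ),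
      ∑ j, u j = 0 ∧
      (rowLattice g : Set (Fin n → ℝ)) =
        {v | ∃ y ∈ (I : FractionalIdeal (nonZeroDivisors O) K), ∀ j,
          v j = covolFactor σ (I : FractionalIdeal (nonZeroDivisors O) K) *
            ((w j : ℤ) : ℝ) * Real.exp (u j) * σ j y}}

/-- A subring `O` of the number field `K` is an order if it is a finitely generated `ℤ`-module of
rank `[K : ℚ]`. -/
def IsOrder [NumberField K] (O : Subring K) : Prop :=
  Module.Finite ℤ O ∧ Module.finrank ℤ O = Module.finrank ℚ K

/-- `|Disc O| = |Disc K| [O_K : O]²`, as in the problem statement. -/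
def orderDisc [NumberField K] (O : Subring K) : ℤ :=
  |NumberField.discr K| *
    (O.toAddSubgroup.relIndex (integralClosure ℤ K).toSubring.toAddSubgroup : ℤ) ^ 2

/-- Failure of equidistribution for a sequence `P i` of subsets of `X_n` (below: unions of packet
orbits): for all measures `μ i` carried by the `P i` (in particular for the packet measures) and
every `SL_n(ℝ)`-invariant probability measure `m` on `X_n`, it is false that
`∫ f dμ i → ∫ f dm` for all `f ∈ C_c(X_n)`. -/
def NoEquidistribution (P : ℕ → Set (X n)) : Prop :=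
  ∀ μ : ℕ → Measure (X n), (∀ i, ∀ᵐ x ∂(μ i), x ∈ P i) →
    ∀ m : Measure (X n), IsProbabilityMeasure m → IsInvariant m →
      ¬ ∀ f : CompactlySupportedContinuousMap (X n) ℝ,
        Tendsto (fun i => ∫ x, f x ∂(μ i)) atTop (𝓝 (∫ x, f x ∂m))

end Fields

end Vale.Agent.Lib.P007
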