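import Vale.Agent.Lib.P007.Poly

open Polynomial

noncomputable section

namespace Vale.Agent.Lib.P007

/-- All roots in a field `E` of a polynomial of degree `n` with `n` distinct given roots are
among the given ones. -/
lemma mem_range_of_root {E : Type*} [Field E] {p : E[X]} {n : ℕ} (hp : p ≠ 0) (hdeg : p.natDegree = n)
    {r : Fin n → E} (hr : Function.Injective r) (hroot : ∀ i, p.eval (r i) = 0) {z : E}
    (hz : p.eval z = 0) : z ∈ Set.range r := by
  classical
  have hsub : Finset.univ.image r ⊆ p.roots.toFinset := by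
    intro x hx
    obtain ⟨i, -, rfl⟩ := Finset.mem_image.mp hx
    rw [Multiset.mem_toFinset, mem_roots hp]
    exact hroot i
  have hcard : p.roots.toFinset.card ≤ (Finset.univ.image r).card := by
    rw [Finset.card_image_of_injective _ hr, Finset.card_univ, Fintype.card_fin]
    calc p.roots.toFinset.card ≤ Multiset.card p.roots := Multiset.toFinset_card_le _
      _ ≤ p.natDegree := card_roots' p
      _ = n := hdeg
  have heq := Finset.eq_of_subset_of_card_le hsub hcard
  have hz' : z ∈ p.roots.toFinset := by
    rw [Multiset.mem_toFinset, mem_roots hp]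
    exact hz
  rw [← heq] at hz'
  obtain ⟨i, -, rfl⟩ := Finset.mem_image.mp hz'
  exact ⟨i, rfl⟩

section Adjoin

variable (P : ℤ[X])

/-- The rational polynomial attached to `P`. -/
abbrev ratPoly : ℚ[X] := P.map (Int.castRingHom ℚ)

variable [hP : Fact (Irreducible (ratPoly P))]

/-- The number field `ℚ[X]/(P)`. -/
abbrev rootField : Type := AdjoinRoot (ratPoly P)

/-- Two ring homs from `ℚ[X]/(P)` which agree on the root are equal. -/
lemma ringHom_ext_root {E : Type*} [Field E] {φ ψ : rootField P →+* E}
    (h : φ (AdjoinRoot.root (ratPoly P)) = ψ (AdjoinRoot.root (ratPoly P))) : φ = ψ :=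
  AdjoinRoot.ringHom_ext (RingHom.ext_rat _ _) h

lemma eval_image_of_root {E : Type*} [Field E] [Algebra ℤ E] (φ : rootField P →+* E) :
    (P.map (algebraMap ℤ E)).eval (φ (AdjoinRoot.root (ratPoly P))) = 0 := by
  have h1 : (ratPoly P).eval₂ (AdjoinRoot.of (ratPoly P)) (AdjoinRoot.root (ratPoly P)) = 0 :=
    AdjoinRoot.eval₂_root _
  have h2 := congrArg φ h1
  rw [map_zero, Polynomial.hom_eval₂, eval₂_map] at h2
  rw [eval_map]
  convert h2 using 2
  exact RingHom.ext_int _ _

/-- The ring hom `ℚ[X]/(P) → ℝ` sending the root to a given real root of `P`. -/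
def realEmb (x : ℝ) (hx : aeval x P = 0) : rootField P →+* ℝ :=
  AdjoinRoot.lift (algebraMap ℚ ℝ) x (by
    rw [eval₂_map]
    have : (algebraMap ℚ ℝ).comp (Int.castRingHom ℚ) = algebraMap ℤ ℝ := RingHom.ext_int _ _
    rw [this]
    exact hx)

lemma realEmb_root (x : ℝ) (hx : aeval x P = 0) :
    realEmb P x hx (AdjoinRoot.root (ratPoly P)) = x :=
  AdjoinRoot.lift_root _

variable {P}

lemma finrank_rootField (hm : P.Monic) :
    Module.finrank ℚ (rootField P) = P.natDegree := by
  have hne : ratPoly P ≠ 0 := hP.out.ne_zero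
  have h1 := (AdjoinRoot.powerBasis hne).finrank
  rw [AdjoinRoot.powerBasis_dim, hm.natDegree_map] at h1
  convert h1 using 2

/-- The bijection between given real roots of `P` and real embeddings of `ℚ[X]/(P)`. -/
def realEquiv (hm : P.Monic) {n : ℕ} (hdeg : P.natDegree = n) {r : Fin n → ℝ}
    (hr : Function.Injective r) (hroot : ∀ i, aeval (r i) P = 0) : Fin n ≃ (rootField P →+* ℝ) :=
  Equiv.ofBijective (fun i => realEmb P (r i) (hroot i)) (by
    constructor
    · intro i j hij
      apply hr
      have := congrArg (fun f : rootField P →+* ℝ => f (AdjoinRoot.root (ratPoly P))) hij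
      simpa [realEmb_root] using this
    · intro τ
      have h0 := eval_image_of_root P τ
      have hne : P.map (algebraMap ℤ ℝ) ≠ 0 := (hm.map _).ne_zero
      obtain ⟨i, hi⟩ := mem_range_of_root hne (by rw [hm.natDegree_map, hdeg]) hr
        (fun i => by rw [eval_map]; exact hroot i) h0
      refine ⟨i, ?_⟩
      apply ringHom_ext_root
      simp only
      rw [realEmb_root, hi])

lemma realEquiv_root (hm : P.Monic) {n : ℕ} (hdeg : P.natDegree = n) {r : Fin n → ℝ}
    (hr : Function.Injective r) (hroot : ∀ i, aeval (r i) P = 0) (i : Fin n) :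
    realEquiv hm hdeg hr hroot i (AdjoinRoot.root (ratPoly P)) = r i :=
  realEmb_root P (r i) (hroot i)

/-- `ℚ[X]/(P)` is totally real when `P` has as many distinct real roots as its degree. -/
lemma isTotallyReal_rootField (hm : P.Monic) {n : ℕ} (hdeg : P.natDegree = n) {r : Fin n → ℝ}
    (hr : Function.Injective r) (hroot : ∀ i, aeval (r i) P = 0) :
    NumberField.IsTotallyReal (rootField P) := by
  constructor
  intro v
  rw [NumberField.InfinitePlace.isReal_iff, NumberField.ComplexEmbedding.isReal_iff]
  apply ringHom_ext_root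
  set φ : rootField P →+* ℂ := v.embedding
  have h0 := eval_image_of_root P φ
  have hne : P.map (algebraMap ℤ ℂ) ≠ 0 := (hm.map _).ne_zero
  have hinj : Function.Injective fun i => ((r i : ℝ) : ℂ) :=
    fun i j hij => hr (Complex.ofReal_injective hij)
  obtain ⟨i, hi⟩ := mem_range_of_root (r := fun i => ((r i : ℝ) : ℂ)) hne
    (by rw [hm.natDegree_map, hdeg]) hinj (fun i => by
      have h1 := congrArg Complex.ofRealHom (hroot i)
      rw [map_zero, aeval_def, hom_eval₂] at h1
      have h2 : Complex.ofRealHom.comp (algebraMap ℤ ℝ) = algebraMap ℤ ℂ := RingHom.ext_int _ _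
      rw [h2] at h1
      rw [eval_map]
      exact h1) h0
  simp only [NumberField.ComplexEmbedding.conjugate_coe_eq]
  rw [← hi]
  exact Complex.conj_ofReal _

end Adjoin

end Vale.Agent.Lib.P007
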