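import Mathlib

open NumberField Polynomial

noncomputable section

namespace Vale.Agent.Lib.P007

variable {K : Type} [Field K] [NumberField K]

/-- A prime `p` lying in the square of a prime ideal of `𝓞 K` divides the discriminant of `K`. -/
lemma prime_dvd_discr_of_mem_sq {p : ℤ} (hp : Prime p) (P : Ideal (𝓞 K)) [hP : P.IsPrime]
    (hmem : (p : 𝓞 K) ∈ P ^ 2) (hun : P.under ℤ = Ideal.span {p}) : p ∣ discr K := by
  by_contra h
  have h1 : (p : 𝓞 K) ∈ P := Ideal.pow_le_self (by norm_num) hmem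
  have h2 := (not_dvd_discr_iff_forall_mem K (𝓞 K) hp).mp h P hP h1
  have hP0 : P ≠ ⊥ := by
    intro hbot
    rw [hbot, Ideal.mem_bot] at h1
    exact hp.ne_zero (by exact_mod_cast h1)
  have hle : Ideal.map (algebraMap ℤ (𝓞 K)) (P.under ℤ) ≤ P := Ideal.map_comap_le
  let := Localization.AtPrime.algebraOfLiesOver (P.under ℤ) P
  obtain ⟨-, hmap⟩ := (Algebra.isUnramifiedAt_iff_map_eq ℤ (P.under ℤ) P).mp h2
  have h5 : Ideal.ramificationIdx' (P.under ℤ) P = 1 :=
    (Ideal.IsDedekindDomain.ramificationIdx'_eq_one_iff hP0 hle).mpr hmap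
  have h6 := (Ideal.ramificationIdx'_ne_one_iff hle).mpr (by
    rw [hun, Ideal.map_span, Ideal.span_le]
    rintro _ ⟨z, hz, rfl⟩
    rw [Set.mem_singleton_iff] at hz
    subst hz
    simpa using hmem)
  exact h6 h5

/-- The ramification criterion. -/
lemma prime_dvd_discr_of_relation {l : ℕ} (hl : l.Prime) {α : 𝓞 K}
    (hnorm : (l : ℤ) ∣ Algebra.norm ℤ α) {e : ℕ} (he : 2 ≤ e) {u : ℤ} (hu : ¬ (l : ℤ) ∣ u)
    {c w : 𝓞 K} (hrel : (l : 𝓞 K) * ((u : 𝓞 K) + l * c) = α ^ e * w) : (l : ℤ) ∣ discr K := by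
  have hlp : Prime (l : ℤ) := Nat.prime_iff_prime_int.mp hl
  have h0 : l ∣ (Ideal.span {α}).absNorm := by
    rw [Ideal.absNorm_span_singleton]
    exact Int.natCast_dvd.mp hnorm
  obtain ⟨P, hPm, hPu, hPd⟩ := Ideal.exists_isMaximal_dvd_of_dvd_absNorm' hl _ h0
  have hprime : P.IsPrime := hPm.isPrime
  have hαP : α ∈ P := by
    have := Ideal.dvd_iff_le.mp hPd
    exact this (Ideal.mem_span_singleton_self α)
  have hlP : (l : 𝓞 K) ∈ P := by
    have h1 : ((l : ℤ) : ℤ) ∈ P.under ℤ := by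
      rw [hPu]; exact Ideal.mem_span_singleton_self _
    have h2 : algebraMap ℤ (𝓞 K) (l : ℤ) ∈ P := h1
    simpa using h2
  have hv : (u : 𝓞 K) + l * c ∉ P := by
    intro h
    have h1 : (u : 𝓞 K) ∈ P := by
      have := P.sub_mem h (P.mul_mem_right c hlP)
      simpa using this
    have h2 : u ∈ P.under ℤ := by
      change algebraMap ℤ (𝓞 K) u ∈ P
      simpa using h1
    rw [hPu, Ideal.mem_span_singleton] at h2
    exact hu h2
  have hmem : (l : 𝓞 K) * ((u : 𝓞 K) + l * c) ∈ P ^ 2 := by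
    rw [hrel]
    refine Ideal.mul_mem_right _ _ ?_
    exact Ideal.pow_le_pow_right he (Ideal.pow_mem_pow hαP e)
  rcases Ideal.IsPrime.mem_pow_mul P hmem with h | h
  · exact prime_dvd_discr_of_mem_sq hlp P (by simpa using h) hPu
  · exact absurd h hv

end Vale.Agent.Lib.P007
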