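import Vale.Agent.Lib.P007.PrimeGen
import Vale.Agent.Lib.P007.FieldC
import Vale.Agent.Lib.P007.Ramify

open Polynomial NumberField IntermediateField

noncomputable section

namespace Vale.Agent.Lib.P007

/-- The norm of a generator of a number field is determined by the constant coefficient of its
minimal polynomial. -/
lemma norm_eq_of_generator {K : Type} [Field K] [NumberField K] {α : K} {p : ℚ[X]}
    (hirr : Irreducible p) (hm : p.Monic) (hα : aeval α p = 0)
    (hdeg : p.natDegree = Module.finrank ℚ K) :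
    Algebra.norm ℚ α = (-1) ^ Module.finrank ℚ K * p.coeff 0 := by
  have hmin : p = minpoly ℚ α := minpoly.eq_of_irreducible_of_monic hirr hα hm
  have hint : IsIntegral ℚ α := Algebra.IsIntegral.isIntegral α
  have h1 := Algebra.norm_eq_norm_adjoin ℚ α
  have hfr : Module.finrank ℚ ℚ⟮α⟯ = Module.finrank ℚ K := by
    rw [IntermediateField.adjoin.finrank hint, ← hmin, hdeg]
  have hpos : 0 < Module.finrank ℚ ℚ⟮α⟯ := Module.finrank_pos
  have h2 : Module.finrank ℚ⟮α⟯ K = 1 := by
    have := Module.finrank_mul_finrank ℚ ℚ⟮α⟯ K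
    rw [hfr] at this
    rw [← hfr] at this
    exact Nat.eq_of_mul_eq_mul_left hpos (by rw [this, mul_one])
  rw [h1, h2, pow_one]
  have h3 := Algebra.PowerBasis.norm_gen_eq_coeff_zero_minpoly (adjoin.powerBasis hint)
  rw [adjoin.powerBasis_gen, adjoin.powerBasis_dim, minpoly_gen] at h3
  rw [h3, ← hmin, hdeg]

/-- A member of the family: a totally real field of degree `d e` containing a root of the fixed
polynomial `f`, with large discriminant. -/
theorem exists_family_member {d e : ℕ} (hd : 2 ≤ d) (he : 2 ≤ e) (N : ℕ) :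
    ∃ (P : ℤ[X]) (_ : Fact (Irreducible (ratPoly P))), P.Monic ∧ P.natDegree = d * e ∧
      (∃ r : Fin (d * e) → ℝ, Function.Injective r ∧ ∀ i, aeval (r i) P = 0) ∧
      (∃ β : rootField P, aeval β (basePoly d) = 0) ∧ (N : ℤ) < |discr (rootField P)| := by
  have hd1 : 1 ≤ d := by omega
  have he1 : 1 ≤ e := by omega
  obtain ⟨l, y, u, hl, hlN, hy4, hu, hfy⟩ := exists_large_prime_exact hd N
  set M₁ : ℤ := (l : ℤ) * (|y| + 4 * d + 3) with hM₁
  set M : ℤ := 4 * (l : ℤ) * M₁ with hM
  have hlpos : (1 : ℤ) ≤ l := by exact_mod_cast hl.one_lt.le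
  have hQ : (0 : ℤ) < |y| + 4 * d + 3 := by positivity
  have hM4 : (4 : ℤ) ∣ M := ⟨(l : ℤ) * M₁, by rw [hM]; ring⟩
  have hMb : |y| + 4 * d + 3 ≤ M / 2 ∧ (2 : ℤ) ∣ M := by
    refine ⟨?_, ⟨2 * (l : ℤ) * M₁, by rw [hM]; ring⟩⟩
    have h1 : M / 2 = 2 * (l : ℤ) * M₁ := by
      rw [hM]
      have : 4 * (l : ℤ) * M₁ = 2 * (2 * (l : ℤ) * M₁) := by ring
      rw [this]
      simp
    rw [h1, hM₁]
    nlinarith [mul_pos hQ hQ, mul_le_mul hlpos hlpos (by norm_num) (by positivity)]
  set P := famPoly d e y M with hP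
  have hm : P.Monic := famPoly_monic hd1 he1 y M
  have hdeg : P.natDegree = d * e := famPoly_natDegree d e y M
  have hfact : Fact (Irreducible (ratPoly P)) := ⟨famPoly_irreducible hd1 he1 hy4 hM4⟩
  obtain ⟨r, hr, hroot⟩ := famPoly_real_roots hd he1 hMb
  let eqv : Fin (d * e) ≃ Fin e × Fin d := Fintype.equivOfCardEq (by simp [mul_comm])
  have hr' : Function.Injective (r ∘ eqv) := hr.comp eqv.injective
  have hroot' : ∀ i, aeval ((r ∘ eqv) i) P = 0 := fun i => hroot (eqv i)
  refine ⟨P, hfact, hm, hdeg, ⟨_, hr', hroot'⟩, ?_, ?_⟩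
  · -- the root of `f`
    refine ⟨aeval (AdjoinRoot.root (ratPoly P)) (shiftPoly y M e), ?_⟩
    have h0 := eval_image_of_root P (RingHom.id (rootField P))
    rw [RingHom.id_apply, eval_map] at h0
    have h1 : aeval (AdjoinRoot.root (ratPoly P)) ((basePoly d).comp (shiftPoly y M e)) = 0 := h0
    rw [aeval_comp] at h1
    exact h1
  · -- the discriminant
    have hn' : Module.finrank ℚ (rootField P) = d * e := by
      rw [← hdeg]
      convert finrank_rootField (P := P) hm
    set α : rootField P := AdjoinRoot.root (ratPoly P) with hα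
    have h0 : aeval α P = 0 := by
      have h1 := eval_image_of_root P (RingHom.id (rootField P))
      rw [RingHom.id_apply, eval_map] at h1
      exact h1
    have hint : IsIntegral ℤ α := ⟨P, hm, h0⟩
    let α' : 𝓞 (rootField P) := ⟨α, hint⟩
    have h0' : aeval α' P = 0 := by
      apply RingOfIntegers.coe_injective
      have : algebraMap (𝓞 (rootField P)) (rootField P) (aeval α' P) = aeval α P :=
        (aeval_algebraMap_apply (rootField P) α' P).symm
      exact this.trans (h0.trans (map_zero (algebraMap (𝓞 (rootField P)) (rootField P))).symm)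
    obtain ⟨T, hT⟩ := famPoly_eq d e y M
    obtain ⟨H, hH⟩ := nodePoly_eq e M
    have hexp : P = C ((basePoly d).eval y) + (X ^ e + C M * H) * T := by
      rw [hP, hT, hH]
    -- the relation in `𝓞 K`
    set t := aeval α' T with ht
    set h := aeval α' H with hh
    have hrel0 : ((l : 𝓞 (rootField P)) * (u : 𝓞 (rootField P))) +
        (α' ^ e + (M : 𝓞 (rootField P)) * h) * t = 0 := by
      have h1 : aeval α' (C ((basePoly d).eval y) + (X ^ e + C M * H) * T) = 0 := by
        rw [← hexp]; exact h0'
      simp only [map_add, map_mul, aeval_C, map_pow, aeval_X, hfy] at h1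
      simpa using h1
    have hrel : (l : 𝓞 (rootField P)) * ((u : 𝓞 (rootField P)) +
        l * (((4 * (|y| + 4 * d + 3) : ℤ) : 𝓞 (rootField P)) * h * t)) = α' ^ e * (- t) := by
      have h2 : (M : 𝓞 (rootField P)) =
          (l : 𝓞 (rootField P)) * (l * ((4 * (|y| + 4 * d + 3) : ℤ) : 𝓞 (rootField P))) := by
        rw [hM, hM₁]
        push_cast
        ring
      rw [h2] at hrel0
      linear_combination hrel0
    -- the norm
    have hc0 : (l : ℤ) ∣ P.coeff 0 := by
      have h3 : P.coeff 0 = P.eval 0 := coeff_zero_eq_eval_zero P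
      rw [h3, hexp]
      simp only [eval_add, eval_mul, eval_C, eval_pow, eval_X, hfy]
      rw [zero_pow (by omega), zero_add, hM]
      exact ⟨u + (4 * M₁ * H.eval 0) * T.eval 0, by ring⟩
    have hnorm : (l : ℤ) ∣ Algebra.norm ℤ α' := by
      have h4 : ((Algebra.norm ℤ α' : ℤ) : ℚ) = (-1) ^ (d * e) * ((P.coeff 0 : ℤ) : ℚ) := by
        rw [Algebra.coe_norm_int]
        have h5 := norm_eq_of_generator (K := rootField P) (α := α) (p := ratPoly P) hfact.out
          (hm.map _) (by
            have : (Int.castRingHom ℚ) = algebraMap ℤ ℚ := rfl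
            show aeval α (P.map (Int.castRingHom ℚ)) = 0
            rw [this, aeval_map_algebraMap]
            exact h0)
          (by rw [hm.natDegree_map, hn', hdeg])
        rw [hn'] at h5
        rw [show ((α' : 𝓞 (rootField P)) : rootField P) = α from rfl, h5, coeff_map]
        simp
      have h6 : Algebra.norm ℤ α' = (-1) ^ (d * e) * P.coeff 0 := by
        exact_mod_cast h4
      rw [h6]
      exact Dvd.dvd.mul_left hc0 _
    have hdvd := prime_dvd_discr_of_relation hl hnorm he hu hrel
    have hne : discr (rootField P) ≠ 0 := discr_ne_zero _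
    have h7 : (l : ℤ) ≤ |discr (rootField P)| := by
      have := Int.le_of_dvd (abs_pos.mpr hne) ((dvd_abs _ _).mpr hdvd)
      exact this
    have h8 : (N : ℤ) < l := by exact_mod_cast hlN
    linarith

end Vale.Agent.Lib.P007
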