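import Vale.Agent.Lib.P007.Defs

open MeasureTheory Filter Topology Module

noncomputable section

namespace Vale.Agent.Lib.P007

variable {K : Type} [Field K] [NumberField K] {n : ℕ}

/-- The matrix with rows `σ(v_k)`. -/
def rowsMatrix (σ : Fin n → K →+* ℝ) (v : Fin n → K) : Matrix (Fin n) (Fin n) ℝ :=
  Matrix.of fun k j => σ j (v k)

lemma det_rowsMatrix_ne_zero (σ : Fin n ≃ (K →+* ℝ)) (hn : finrank ℚ K = n) {v : Fin n → K}
    (hv : LinearIndependent ℚ v) : (rowsMatrix σ v).det ≠ 0 := by
  intro hdet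
  obtain ⟨c, hc0, hc⟩ := Matrix.exists_mulVec_eq_zero_iff.mpr hdet
  have hk : ∀ k, ∑ j, σ j (v k) * c j = 0 := fun k => by
    have := congrFun hc k
    simpa [Matrix.mulVec, dotProduct, rowsMatrix] using this
  let L : K →ₗ[ℚ] ℝ := ∑ j, c j • ((σ j).toRatAlgHom.toLinearMap)
  have hLv : ∀ k, L (v k) = 0 := fun k => by
    simp only [L, LinearMap.sum_apply, LinearMap.smul_apply]
    rw [← hk k]
    refine Finset.sum_congr rfl fun j _ => ?_
    simp [mul_comm]
  have hspan : Submodule.span ℚ (Set.range v) = ⊤ :=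
    hv.span_eq_top_of_card_eq_finrank' (by simp [hn])
  have hL0 : L = 0 := LinearMap.ext_on_range hspan (fun k => by simp [hLv])
  have hind := (linearIndependent_monoidHom K ℝ).comp
    (fun j => ((σ j : K →+* ℝ) : K →* ℝ)) (fun i j hij => by
      apply σ.injective
      ext x
      have := congrArg (fun f : K →* ℝ => f x) hij
      simpa using this)
  have := Fintype.linearIndependent_iff.mp hind c (by
    ext x
    have h1 := congrArg (fun f : K →ₗ[ℚ] ℝ => f x) hL0
    simp only [L, LinearMap.sum_apply, LinearMap.smul_apply, LinearMap.zero_apply] at h1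
    simp only [Finset.sum_apply, Pi.smul_apply, Function.comp, Pi.zero_apply]
    simpa using h1)
  exact hc0 (funext this)

section Lattice

variable {O : Subring K}

/-- The lattice `{(t_j σ_j y)_j : y ∈ O}` is the `ℤ`-span of the vectors attached to a basis. -/
lemma coe_span_eq (σ : Fin n → K →+* ℝ) (b : Basis (Fin n) ℤ O) (t : Fin n → ℝ) :
    ((Submodule.span ℤ (Set.range fun k => (fun j => t j * σ j (b k : K) : Fin n → ℝ)) :
      Submodule ℤ (Fin n → ℝ)) : Set (Fin n → ℝ)) =
    {v | ∃ y ∈ (1 : FractionalIdeal (nonZeroDivisors O) K), ∀ j, v j = t j * σ j y} := by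
  have key : ∀ a : Fin n → ℤ, ∀ j, (∑ k, a k • (fun j => t j * σ j (b k : K) : Fin n → ℝ)) j =
      t j * σ j (((∑ k, a k • b k : O) : K)) := by
    intro a j
    rw [AddSubmonoidClass.coe_finsetSum, map_sum, Finset.mul_sum, Finset.sum_apply]
    refine Finset.sum_congr rfl fun k _ => ?_
    simp only [Pi.smul_apply, zsmul_eq_mul]
    push_cast
    rw [map_mul, map_intCast]
    ring
  ext v
  constructor
  · intro hv
    obtain ⟨a, rfl⟩ := (Submodule.mem_span_range_iff_exists_fun ℤ).mp hv
    exact ⟨_, (FractionalIdeal.mem_one_iff _).mpr ⟨∑ k, a k • b k, rfl⟩, key a⟩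
  · rintro ⟨y, hy, hv⟩
    obtain ⟨x, rfl⟩ := (FractionalIdeal.mem_one_iff _).mp hy
    refine (Submodule.mem_span_range_iff_exists_fun ℤ).mpr ⟨fun k => b.repr x k, ?_⟩
    ext j
    rw [key, hv j, b.sum_repr]
    rfl

/-- The ring hom `O → K` as a `ℤ`-linear map has independent image of a basis, which is
`ℚ`-independent in `K`. -/
lemma linearIndependent_coe_basis (b : Basis (Fin n) ℤ O) :
    LinearIndependent ℚ (fun k => (b k : K)) := by
  have h1 : LinearIndependent ℤ (fun k => (b k : K)) := by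
    have := b.linearIndependent.map' (O.subtype.toIntAlgHom.toLinearMap) (by
      rw [LinearMap.ker_eq_bot]
      exact Subtype.val_injective)
    exact this
  exact (LinearIndependent.iff_fractionRing ℤ ℚ).mp h1

/-- Existence of a point in the packet: the orbit of the order itself. -/
lemma packetOrbits_nonempty (σ : Fin n ≃ (K →+* ℝ)) (hn : finrank ℚ K = n) (hO : IsOrder O) :
    (packetOrbits σ O).Nonempty := by
  classical
  have hfin : Module.Finite ℤ O := hO.1
  have hrank : finrank ℤ O = n := hO.2.trans hn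
  have hnpos : 0 < n := hn ▸ Module.finrank_pos
  have : Nonempty (Fin n) := ⟨⟨0, hnpos⟩⟩
  let b : Basis (Fin n) ℤ O := Module.finBasisOfFinrankEq ℤ O hrank
  set M := rowsMatrix σ (fun k => (b k : K)) with hM
  have hdet : M.det ≠ 0 := det_rowsMatrix_ne_zero σ hn (linearIndependent_coe_basis b)
  -- the real basis given by the rows
  have hrows : LinearIndependent ℝ M.row := by
    exact Matrix.linearIndependent_rows_of_det_ne_zero hdet
  let bR : Basis (Fin n) ℝ (Fin n → ℝ) :=
    basisOfLinearIndependentOfCardEqFinrank hrows (by simp)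
  have hbR : ∀ k, bR k = M k := fun k => by
    simp [bR]
    rfl
  -- the covolume
  have hL : idealLattice (σ : Fin n → K →+* ℝ) (1 : FractionalIdeal (nonZeroDivisors O) K) =
      Submodule.span ℤ (Set.range bR) := by
    apply SetLike.coe_injective
    have h1 := coe_span_eq (σ : Fin n → K →+* ℝ) b (fun _ => 1)
    have h2 : Set.range (⇑bR) = Set.range fun k => (fun j => (1 : ℝ) * σ j (b k : K) : Fin n → ℝ) := by
      congr 1
      ext k j
      rw [hbR]
      simp [hM, rowsMatrix]
    rw [h2, h1]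
    ext v
    simp [idealLattice]
  have hcov : ZLattice.covolume (idealLattice (σ : Fin n → K →+* ℝ)
      (1 : FractionalIdeal (nonZeroDivisors O) K)) = |M.det| := by
    rw [hL, ZLattice.covolume_eq_det _ (bR.restrictScalars ℤ)]
    congr 2
    ext k j
    simp [hbR]
  -- the normalising factor
  set δ := M.det with hδ
  have hδabs : 0 < |δ| := abs_pos.mpr hdet
  set c : ℝ := |δ| ^ (-(1 : ℝ) / n) with hc
  have hcpos : 0 < c := Real.rpow_pos_of_pos hδabs _
  have hcn : c ^ n = |δ|⁻¹ := by
    rw [hc, ← Real.rpow_natCast, ← Real.rpow_mul hδabs.le]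
    have : (n : ℝ) ≠ 0 := by exact_mod_cast hnpos.ne'
    rw [show (-(1 : ℝ) / n) * n = -1 by field_simp, Real.rpow_neg_one]
  -- signs
  let j₀ : Fin n := ⟨0, hnpos⟩
  let s : ℤˣ := if 0 < δ then 1 else -1
  let w : Fin n → ℤˣ := fun j => if j = j₀ then s else 1
  have hws : ∏ j, (((w j : ℤˣ) : ℤ) : ℝ) = ((s : ℤ) : ℝ) := by
    simp only [w]
    rw [Finset.prod_eq_single j₀]
    · simp
    · intro j _ hj
      simp [hj]
    · simp
  have hsδ : ((s : ℤ) : ℝ) * δ = |δ| := by
    by_cases h : 0 < δ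
    · simp [s, h, abs_of_pos h]
    · have h' : δ < 0 := lt_of_le_of_ne (not_lt.mp h) hdet
      simp [s, h, abs_of_neg h']
  -- the matrix
  let t : Fin n → ℝ := fun j => c * ((w j : ℤ) : ℝ) * Real.exp ((0 : Fin n → ℝ) j)
  let G : Matrix (Fin n) (Fin n) ℝ := Matrix.of fun k j => t j * σ j (b k : K)
  have hG : G = M * Matrix.diagonal t := by
    ext k j
    simp [G, Matrix.mul_diagonal, hM, rowsMatrix, mul_comm]
  have hdetG : G.det = 1 := by
    rw [hG, Matrix.det_mul, Matrix.det_diagonal]
    have h1 : ∏ j, t j = c ^ n * ((s : ℤ) : ℝ) := by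
      simp only [t, Pi.zero_apply, Real.exp_zero, mul_one]
      rw [Finset.prod_mul_distrib, hws]
      simp
    rw [h1, hcn]
    calc δ * (|δ|⁻¹ * ((s : ℤ) : ℝ)) = (((s : ℤ) : ℝ) * δ) * |δ|⁻¹ := by ring
      _ = 1 := by rw [hsδ]; exact mul_inv_cancel₀ hδabs.ne'
  let g : SLR n := ⟨G, hdetG⟩
  refine ⟨X.mk g, g, rfl, 1, w, 0, by simp, ?_⟩
  have h3 : (rowLattice g : Set (Fin n → ℝ)) = ((Submodule.span ℤ
      (Set.range fun k => (fun j => t j * σ j (b k : K) : Fin n → ℝ)) :
      Submodule ℤ (Fin n → ℝ)) : Set (Fin n → ℝ)) := rfl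
  rw [h3, coe_span_eq (σ : Fin n → K →+* ℝ) b t]
  ext v
  simp only [t, covolFactor, hcov, Units.val_one]
  rfl

end Lattice

end Vale.Agent.Lib.P007
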