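import Vale.Agent.Lib.P007.Defs

open Filter NumberField

noncomputable section

namespace Vale.Agent.Lib.P007

variable {K : Type} [Field K] [NumberField K]

/-- The order `O_F + m O_K`, for an intermediate field `F`. -/
def orderOf (F : IntermediateField ℚ K) (m : ℕ) : Subring K where
  carrier := {x | ∃ r ∈ F, IsIntegral ℤ r ∧ ∃ y, IsIntegral ℤ y ∧ x = r + m * y}
  mul_mem' := by
    rintro _ _ ⟨r, hr, hri, y, hy, rfl⟩ ⟨s, hs, hsi, z, hz, rfl⟩
    refine ⟨r * s, F.mul_mem hr hs, hri.mul hsi, r * z + y * s + m * (y * z),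
      ((hri.mul hz).add (hy.mul hsi)).add ((isIntegral_natCast _).mul (hy.mul hz)), by ring⟩
  one_mem' := ⟨1, F.one_mem, isIntegral_one, 0, isIntegral_zero, by simp⟩
  add_mem' := by
    rintro _ _ ⟨r, hr, hri, y, hy, rfl⟩ ⟨s, hs, hsi, z, hz, rfl⟩
    exact ⟨r + s, F.add_mem hr hs, hri.add hsi, y + z, hy.add hz, by ring⟩
  zero_mem' := ⟨0, F.zero_mem, isIntegral_zero, 0, isIntegral_zero, by simp⟩
  neg_mem' := by
    rintro _ ⟨r, hr, hri, y, hy, rfl⟩
    exact ⟨-r, F.neg_mem hr, hri.neg, -y, hy.neg, by ring⟩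

lemma isIntegral_of_mem_orderOf {F : IntermediateField ℚ K} {m : ℕ} {x : K}
    (hx : x ∈ orderOf F m) : IsIntegral ℤ x := by
  obtain ⟨r, -, hri, y, hy, rfl⟩ := hx
  exact hri.add ((isIntegral_natCast _).mul hy)

lemma mem_orderOf_of_mem {F : IntermediateField ℚ K} {m : ℕ} {x : K} (hx : x ∈ F)
    (hxi : IsIntegral ℤ x) : x ∈ orderOf F m :=
  ⟨x, hx, hxi, 0, isIntegral_zero, by simp⟩

lemma mul_mem_orderOf (F : IntermediateField ℚ K) (m : ℕ) {y : K} (hy : IsIntegral ℤ y) :
    (m : K) * y ∈ orderOf F m :=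
  ⟨0, F.zero_mem, isIntegral_zero, y, hy, by simp⟩

/-- `O_F + m O_K` is an order of `K` for `m ≠ 0`. -/
lemma isOrder_orderOf (F : IntermediateField ℚ K) {m : ℕ} (hm : m ≠ 0) :
    IsOrder (orderOf F m) := by
  let f : orderOf F m →ₗ[ℤ] 𝓞 K :=
    { toFun := fun x => ⟨x.1, isIntegral_of_mem_orderOf x.2⟩
      map_add' := fun _ _ => rfl
      map_smul' := fun _ _ => rfl }
  have hf : Function.Injective f := by
    intro x y hxy
    have : (x : K) = y := congrArg (fun z : 𝓞 K => (z : K)) hxy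
    exact Subtype.ext this
  let g : 𝓞 K →ₗ[ℤ] orderOf F m :=
    { toFun := fun y => ⟨(m : K) * y, mul_mem_orderOf F m y.2⟩
      map_add' := fun x y => by
        apply Subtype.ext
        simp [mul_add]
      map_smul' := fun c x => by
        apply Subtype.ext
        simp
        ring }
  have hg : Function.Injective g := by
    intro x y hxy
    have h1 : (m : K) * x = (m : K) * y := congrArg Subtype.val hxy
    have hm' : (m : K) ≠ 0 := by exact_mod_cast hm
    have h2 : (x : K) = y := mul_left_cancel₀ hm' h1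
    exact RingOfIntegers.ext h2
  have hfin : Module.Finite ℤ (orderOf F m) := Module.Finite.of_injective f hf
  refine ⟨hfin, le_antisymm ?_ ?_⟩
  · rw [← RingOfIntegers.rank]
    exact LinearMap.finrank_le_finrank_of_injective hf
  · rw [← RingOfIntegers.rank]
    exact LinearMap.finrank_le_finrank_of_injective hg

/-- The additive subgroup of algebraic integers of `K`. -/
abbrev integersSubgroup (K : Type) [Field K] [NumberField K] : AddSubgroup K :=
  (integralClosure ℤ K).toSubring.toAddSubgroup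

lemma mem_integersSubgroup {x : K} : x ∈ integersSubgroup K ↔ IsIntegral ℤ x := Iff.rfl

/-- `O_F + m O_K` has finite index in `O_K`. -/
lemma relIndex_orderOf_ne_zero (F : IntermediateField ℚ K) {m : ℕ} (hm : m ≠ 0) :
    (orderOf F m).toAddSubgroup.relIndex (integersSubgroup K) ≠ 0 := by
  set A := integersSubgroup K with hA
  set H := (orderOf F m).toAddSubgroup with hH
  let e : 𝓞 K →+ A :=
    { toFun := fun y => ⟨(y : K), y.2⟩
      map_zero' := rfl
      map_add' := fun _ _ => rfl }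
  have he : Function.Surjective e := fun a => ⟨⟨a.1, a.2⟩, rfl⟩
  have hfg1 : AddGroup.FG (𝓞 K) := Module.Finite.iff_addGroup_fg.mp inferInstance
  have hfg2 : AddGroup.FG A := AddGroup.fg_of_surjective he
  have hfg3 : AddGroup.FG (A ⧸ H.addSubgroupOf A) := QuotientAddGroup.fg _
  have htor : IsAddTorsion (A ⧸ H.addSubgroupOf A) := by
    intro q
    obtain ⟨a, rfl⟩ := QuotientAddGroup.mk_surjective q
    rw [isOfFinAddOrder_iff_nsmul_eq_zero]
    refine ⟨m, Nat.pos_of_ne_zero hm, ?_⟩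
    rw [← QuotientAddGroup.mk_nsmul, QuotientAddGroup.eq_zero_iff]
    change ((m • a : A) : K) ∈ orderOf F m
    have : ((m • a : A) : K) = (m : K) * (a : K) := by simp
    rw [this]
    exact mul_mem_orderOf F m a.2
  have hfin : Finite (A ⧸ H.addSubgroupOf A) := AddCommGroup.finite_of_fg_isAddTorsion _ htor
  exact AddSubgroup.index_ne_zero_of_finite

/-- Common denominator for the values of a linear form on the algebraic integers. -/
lemma exists_denominator (ψ : K →ₗ[ℚ] ℚ) :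
    ∃ N : ℤ, N ≠ 0 ∧ ∀ y : 𝓞 K, ∃ z : ℤ, (N : ℚ) * ψ (y : K) = z := by
  classical
  let b := RingOfIntegers.basis K
  let s : Finset ℚ := Finset.univ.image fun j => ψ (b j : K)
  obtain ⟨N, hN⟩ := IsLocalization.exist_integer_multiples_of_finset (nonZeroDivisors ℤ) s
  have hN0 : ((N : nonZeroDivisors ℤ) : ℤ) ≠ 0 := nonZeroDivisors.ne_zero N.2
  refine ⟨N, hN0, fun y => ?_⟩
  have hy : y ∈ Submodule.span ℤ (Set.range b) := b.mem_span y
  induction hy using Submodule.span_induction with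
  | mem x hx =>
    obtain ⟨j, rfl⟩ := hx
    obtain ⟨z, hz⟩ := hN (ψ (b j : K)) (Finset.mem_image_of_mem _ (Finset.mem_univ j))
    refine ⟨z, ?_⟩
    have h2 : ((N : nonZeroDivisors ℤ) : ℤ) • ψ (b j : K) = z := by
      rw [← hz]; simp
    rw [← h2]
    simp
  | zero => exact ⟨0, by simp⟩
  | add x y _ _ hx hy =>
    obtain ⟨z, hz⟩ := hx
    obtain ⟨w, hw⟩ := hy
    refine ⟨z + w, ?_⟩
    push_cast
    rw [map_add, mul_add, hz, hw]
  | smul a x _ hx =>
    obtain ⟨z, hz⟩ := hx
    refine ⟨a * z, ?_⟩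
    have h1 : ((a • x : 𝓞 K) : K) = (a : ℚ) • (x : K) := by
      simp [Rat.smul_def]
    rw [h1, map_smul]
    push_cast
    rw [← hz, smul_eq_mul]
    ring

/-- Growth of the index of `O_F + m O_K` in `O_K`, for `F ≠ K`. -/
lemma exists_index_bound {F : IntermediateField ℚ K} (hF : F ≠ ⊤) :
    ∃ C : ℕ, 0 < C ∧ ∀ m : ℕ, m ≠ 0 →
      m ≤ C * (orderOf F m).toAddSubgroup.relIndex (integersSubgroup K) := by
  -- a rational linear form vanishing on `F`
  have hlt : F.toSubalgebra.toSubmodule < ⊤ := by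
    refine lt_top_iff_ne_top.mpr fun h => hF ?_
    rw [eq_top_iff]
    intro x _
    have : x ∈ F.toSubalgebra.toSubmodule := by rw [h]; trivial
    exact this
  obtain ⟨ψ, hψ, hker⟩ := Submodule.exists_le_ker_of_lt_top _ hlt
  have hψF : ∀ x ∈ F, ψ x = 0 := fun x hx => hker hx
  -- an algebraic integer on which it does not vanish
  obtain ⟨x, hx⟩ : ∃ x, ψ x ≠ 0 := by
    by_contra hcon
    push Not at hcon
    exact hψ (LinearMap.ext hcon)
  have halg : IsAlgebraic ℤ x :=
    (IsFractionRing.isAlgebraic_iff ℤ ℚ K).mpr (Algebra.IsAlgebraic.isAlgebraic x)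
  obtain ⟨y₀, hy₀, hint⟩ := halg.exists_integral_multiple
  set v : K := y₀ • x with hv
  have hψv : ψ v ≠ 0 := by
    have h1 : v = (y₀ : ℚ) • x := by simp [hv, Rat.smul_def]
    rw [h1, map_smul]
    exact smul_ne_zero (by exact_mod_cast hy₀) hx
  obtain ⟨N, hN, hden⟩ := exists_denominator ψ
  obtain ⟨a, ha⟩ := hden ⟨v, hint⟩
  have ha' : (N : ℚ) * ψ v = a := ha
  have ha0 : a ≠ 0 := by
    intro h
    rw [h] at ha'
    simp only [Int.cast_zero, mul_eq_zero, Int.cast_eq_zero] at ha'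
    rcases ha' with h | h
    · exact hN h
    · exact hψv h
  refine ⟨a.natAbs, Int.natAbs_pos.mpr ha0, fun m hm => ?_⟩
  set i := (orderOf F m).toAddSubgroup.relIndex (integersSubgroup K) with hi
  have hi0 : i ≠ 0 := relIndex_orderOf_ne_zero F hm
  have hmem : i • v ∈ (orderOf F m).toAddSubgroup :=
    AddSubgroup.nsmul_relIndex_mem _ (mem_integersSubgroup.mpr hint)
  obtain ⟨r, hr, -, y, hy, hry⟩ := hmem
  obtain ⟨z, hz⟩ := hden ⟨y, hy⟩
  have hz' : (N : ℚ) * ψ y = z := hz
  have h1 : (i : ℚ) * ψ v = (m : ℚ) * ψ y := by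
    have h2 : ψ (i • v) = ψ (r + m * y) := by rw [hry]
    have h3 : (m : K) * y = m • y := by simp
    rw [map_add, hψF r hr, zero_add, h3, map_nsmul, map_nsmul] at h2
    simpa using h2
  have h4 : (i : ℤ) * a = (m : ℤ) * z := by
    have h5 : (((i : ℤ) * a : ℤ) : ℚ) = (((m : ℤ) * z : ℤ) : ℚ) := by
      push_cast
      rw [← ha', ← hz']
      linear_combination (N : ℚ) * h1
    exact_mod_cast h5
  have hz0 : z ≠ 0 := by
    intro h
    rw [h, mul_zero] at h4
    rcases mul_eq_zero.mp h4 with h | h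
    · exact hi0 (by exact_mod_cast h)
    · exact ha0 h
  have h6 : ((m : ℤ) * z).natAbs = ((i : ℤ) * a).natAbs := by rw [h4]
  rw [Int.natAbs_mul, Int.natAbs_mul, Int.natAbs_natCast, Int.natAbs_natCast] at h6
  have h7 : 1 ≤ z.natAbs := Int.natAbs_pos.mpr hz0
  calc m ≤ m * z.natAbs := Nat.le_mul_of_pos_right m h7
    _ = i * a.natAbs := h6
    _ = a.natAbs * i := Nat.mul_comm _ _

/-- The discriminants of the orders `O_F + (t+1) O_K` tend to infinity, for `F ≠ K`. -/
lemma tendsto_orderDisc {F : IntermediateField ℚ K} (hF : F ≠ ⊤) :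
    Tendsto (fun t : ℕ => orderDisc (orderOf F (t + 1))) atTop atTop := by
  obtain ⟨C, hC, hbound⟩ := exists_index_bound hF
  rw [tendsto_atTop]
  intro b
  filter_upwards [eventually_ge_atTop (C * b.toNat)] with t ht
  set i := (orderOf F (t + 1)).toAddSubgroup.relIndex (integersSubgroup K) with hi
  have h1 : t + 1 ≤ C * i := hbound (t + 1) (Nat.succ_ne_zero t)
  have h2 : b.toNat ≤ i := by
    by_contra hcon
    push Not at hcon
    have : C * (i + 1) ≤ C * b.toNat := Nat.mul_le_mul_left C hcon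
    nlinarith
  have h3 : (1 : ℤ) ≤ |NumberField.discr K| := Int.one_le_abs (NumberField.discr_ne_zero K)
  have h4 : (b : ℤ) ≤ (i : ℤ) := by
    have : (b.toNat : ℤ) ≤ i := by exact_mod_cast h2
    have h5 : b ≤ (b.toNat : ℤ) := Int.self_le_toNat b
    linarith
  have h6 : (i : ℤ) ≤ (i : ℤ) ^ 2 := by
    have : (0 : ℤ) ≤ i := by positivity
    nlinarith [sq_nonneg ((i : ℤ) - 1)]
  unfold orderDisc
  have h7 : (0 : ℤ) ≤ (i : ℤ) ^ 2 := by positivity
  have h8 : (i : ℤ) ^ 2 ≤ |NumberField.discr K| * (i : ℤ) ^ 2 := by nlinarith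
  calc b ≤ (i : ℤ) := h4
    _ ≤ (i : ℤ) ^ 2 := h6
    _ ≤ _ := h8

end Vale.Agent.Lib.P007
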