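import Vale.Agent.Lib.P007.Packet
import Vale.Agent.Lib.P007.FieldC
import Vale.Agent.Lib.P007.Orders
import Vale.Agent.Lib.P007.Nonempty

open MeasureTheory Filter Topology Polynomial IntermediateField

noncomputable section

namespace Vale.Agent.Lib.P007

/-- The obstruction, in the form of `NoEquidistribution`. -/
theorem noEquidistribution_of_bounded_element {n : ℕ}
    (K : ℕ → Type) [∀ i, Field (K i)] [∀ i, NumberField (K i)]
    [∀ i, NumberField.IsTotallyReal (K i)] (hdeg : ∀ i, Module.finrank ℚ (K i) = n)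
    (σ : ∀ i, Fin n ≃ (K i →+* ℝ)) (O : ∀ i, Subring (K i)) (hO : ∀ i, IsOrder (O i)) (C : ℝ)
    (hbdd : ∃ᶠ i in atTop, ∃ α ∈ O i, α ∉ Set.range (algebraMap ℚ (K i)) ∧ ∀ j, |σ i j α| ≤ C) :
    NoEquidistribution fun i => packetOrbits (σ i) (O i) := by
  intro μ hμ m hmp hm
  exact not_tendsto_of_bounded_element K hdeg σ O hO C hbdd μ hμ m hm

/-- Everything follows from a totally real field with an element `β` of proper degree. -/
theorem exists_of_subfield_element {K : Type} [Field K] [NumberField K]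
    [NumberField.IsTotallyReal K] {n : ℕ} (σ : Fin n ≃ (K →+* ℝ))
    (hn : Module.finrank ℚ K = n) {p : ℤ[X]} (hpm : p.Monic)
    (hpirr : Irreducible (p.map (Int.castRingHom ℚ))) (hpd : 2 ≤ p.natDegree)
    (hpn : p.natDegree < n) {β : K} (hβ : aeval β p = 0) :
    ∃ (F : IntermediateField ℚ K) (O : ℕ → Subring K),
      F ≠ ⊥ ∧ F ≠ ⊤ ∧ (∀ t, IsOrder (O t)) ∧ (∀ t, ∀ x ∈ F, IsIntegral ℤ x → x ∈ O t) ∧
      Tendsto (fun t => orderDisc (O t)) atTop atTop ∧
      (∀ t, (packetOrbits σ (O t)).Nonempty) ∧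
      NoEquidistribution fun t => packetOrbits σ (O t) := by
  have hint : IsIntegral ℤ β := ⟨p, hpm, hβ⟩
  have hintQ : IsIntegral ℚ β := hint.tower_top
  have hmin : p.map (Int.castRingHom ℚ) = minpoly ℚ β := by
    refine minpoly.eq_of_irreducible_of_monic hpirr ?_ (hpm.map _)
    have : (Int.castRingHom ℚ) = algebraMap ℤ ℚ := rfl
    rw [this, aeval_map_algebraMap]
    exact hβ
  have hdeg : (minpoly ℚ β).natDegree = p.natDegree := by
    rw [← hmin, hpm.natDegree_map]
  have hrat : β ∉ Set.range (algebraMap ℚ K) := by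
    intro h
    have h1 : (minpoly ℚ β).natDegree = 1 := minpoly.natDegree_eq_one_iff.mpr h
    omega
  set F : IntermediateField ℚ K := ℚ⟮β⟯ with hF
  have hfr : Module.finrank ℚ F = p.natDegree := by
    rw [hF, IntermediateField.adjoin.finrank hintQ, hdeg]
  have hFtop : F ≠ ⊤ := by
    intro h
    rw [h, IntermediateField.finrank_top'] at hfr
    omega
  have hFbot : F ≠ ⊥ := by
    intro h
    rw [h, IntermediateField.finrank_bot] at hfr
    omega
  have hβF : β ∈ F := IntermediateField.mem_adjoin_simple_self ℚ β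
  obtain ⟨a, b, hab⟩ := exists_ne_of_not_rational hrat σ
  refine ⟨F, fun t => orderOf F (t + 1), hFbot, hFtop, fun t => isOrder_orderOf F (Nat.succ_ne_zero t),
    fun t x hx hxi => mem_orderOf_of_mem hx hxi, tendsto_orderDisc hFtop,
    fun t => packetOrbits_nonempty σ hn (isOrder_orderOf F (Nat.succ_ne_zero t)), ?_⟩
  intro μ hμ m hmp hm
  refine not_tendsto_of_frequently (D := fun j => σ j β) (a := a) (b := b) hab
    (Frequently.of_forall fun t => ?_) hm
  filter_upwards [hμ t] with x hx
  exact packetOrbits_subset_Zset σ _ (mem_orderOf_of_mem hβF hint) hx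

/-- **Main theorem.**  For every composite `n` there are a totally real field `K` of degree `n`,
an intermediate field `F ≠ ℚ, K`, and orders `O_t ⊇ O_F` of `K` with `|Disc O_t| → ∞` for which no
measures carried by the packets converge to an invariant probability measure of `X_n`. -/
theorem composite_main (n : ℕ) (hn : 1 < n) (hnp : ¬ n.Prime) :
    ∃ (K : Type) (_ : Field K) (_ : NumberField K) (_ : NumberField.IsTotallyReal K)
      (σ : Fin n ≃ (K →+* ℝ)) (F : IntermediateField ℚ K) (O : ℕ → Subring K),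
      Module.finrank ℚ K = n ∧ F ≠ ⊥ ∧ F ≠ ⊤ ∧ (∀ t, IsOrder (O t)) ∧
      (∀ t, ∀ x ∈ F, IsIntegral ℤ x → x ∈ O t) ∧
      Tendsto (fun t => orderDisc (O t)) atTop atTop ∧
      (∀ t, (packetOrbits σ (O t)).Nonempty) ∧
      NoEquidistribution fun t => packetOrbits σ (O t) := by
  obtain ⟨d, e, hd, he, rfl⟩ : ∃ d e, 2 ≤ d ∧ 2 ≤ e ∧ n = d * e := by
    obtain ⟨a, b, ha, hb, hab⟩ := (Nat.not_prime_iff_exists_mul_eq (by omega)).mp hnp
    refine ⟨a, b, ?_, ?_, hab.symm⟩
    · by_contra h
      interval_cases a <;> omega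
    · by_contra h
      interval_cases b <;> omega
  have hd1 : 1 ≤ d := by omega
  have he1 : 1 ≤ e := by omega
  set P := compPoly d e with hP
  have hfact : Fact (Irreducible (ratPoly P)) := ⟨compPoly_irreducible hd1 he1⟩
  obtain ⟨r, hr, hroot⟩ := compPoly_real_roots hd he1
  let eqv : Fin (d * e) ≃ Fin e × Fin d := Fintype.equivOfCardEq (by simp [mul_comm])
  have hr' : Function.Injective (r ∘ eqv) := hr.comp eqv.injective
  have hroot' : ∀ i, aeval ((r ∘ eqv) i) P = 0 := fun i => hroot (eqv i)
  have hm : P.Monic := compPoly_monic hd1 he1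
  have hdeg : P.natDegree = d * e := compPoly_natDegree hd1
  have htr : NumberField.IsTotallyReal (rootField P) := isTotallyReal_rootField hm hdeg hr' hroot'
  let σ : Fin (d * e) ≃ (rootField P →+* ℝ) := realEquiv hm hdeg hr' hroot'
  have hn' : Module.finrank ℚ (rootField P) = d * e := by
    rw [← hdeg]
    convert finrank_rootField (P := P) hm
  let β : rootField P := aeval (AdjoinRoot.root (ratPoly P)) (outerPoly d e)
  have hβ : aeval β (basePoly d) = 0 := by
    have h0 := eval_image_of_root P (RingHom.id (rootField P))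
    rw [RingHom.id_apply, eval_map] at h0
    have h1 : aeval (AdjoinRoot.root (ratPoly P)) ((basePoly d).comp (outerPoly d e)) = 0 := h0
    rw [aeval_comp] at h1
    exact h1
  obtain ⟨F, O, h1, h2, h3, h4, h5, h6, h7⟩ := exists_of_subfield_element (K := rootField P) σ hn'
    (p := basePoly d) (basePoly_monic hd1) (basePoly_irreducible hd1)
    (by rw [basePoly_natDegree]; exact hd)
    (by rw [basePoly_natDegree]; nlinarith) hβ
  exact ⟨rootField P, inferInstance, inferInstance, htr, σ, F, O, hn', h1, h2, h3, h4, h5, h6, h7⟩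

end Vale.Agent.Lib.P007
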