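import Vale.Agent.Lib.P007.Defs

namespace Vale.Agent.Lib.P007

/-- The maximal order `𝓞_K` of `K`, as a subring of `K`. -/
def maximalOrder (K : Type) [Field K] [NumberField K] : Subring K :=
  (integralClosure ℤ K).toSubring

end Vale.Agent.Lib.P007
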