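import Vale.Agent.Lib.P007.FamMember
import Vale.Agent.Lib.P007.Final
import Vale.Agent.Lib.P007.MaxDefs

open MeasureTheory Filter Topology Polynomial NumberField

noncomputable section

namespace Vale.Agent.Lib.P007

section
variable (K : Type) [Field K] [NumberField K]

lemma isOrder_maximalOrder : IsOrder (maximalOrder K) := by
  refine ⟨?_, ?_⟩
  · exact inferInstanceAs (Module.Finite ℤ (𝓞 K))
  · exact RingOfIntegers.rank K

lemma orderDisc_maximalOrder : orderDisc (maximalOrder K) = |discr K| := by
  unfold orderDisc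
  have : (maximalOrder K).toAddSubgroup.relIndex (integralClosure ℤ K).toSubring.toAddSubgroup = 1 := by
    rw [AddSubgroup.relIndex_eq_one]
    exact le_refl _
  rw [this]
  simp
end

/-- The family of maximal orders: for composite `n` there are totally real fields `K t` of degree
`n`, with `|Disc K t| → ∞`, all containing a root of one fixed irreducible monic integer
polynomial of degree strictly between `1` and `n`, whose packets do not equidistribute. -/
theorem composite_maximal (n : ℕ) (hn : 1 < n) (hnp : ¬ n.Prime) :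
    ∃ (K : ℕ → Type) (_ : ∀ t, Field (K t)) (_ : ∀ t, NumberField (K t))
      (_ : ∀ t, IsTotallyReal (K t)) (σ : ∀ t, Fin n ≃ (K t →+* ℝ)) (p : ℤ[X]),
      (∀ t, Module.finrank ℚ (K t) = n) ∧ p.Monic ∧ Irreducible (p.map (Int.castRingHom ℚ)) ∧
      1 < p.natDegree ∧ p.natDegree < n ∧ (∀ t, ∃ β : K t, aeval β p = 0) ∧
      Tendsto (fun t => |discr (K t)|) atTop atTop ∧
      (∀ t, (packetOrbits (σ t) (maximalOrder (K t))).Nonempty) ∧
      NoEquidistribution fun t => packetOrbits (σ t) (maximalOrder (K t)) := by
  obtain ⟨d, e, hd, he, rfl⟩ : ∃ d e, 2 ≤ d ∧ 2 ≤ e ∧ n = d * e := by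
    obtain ⟨a, b, ha, hb, hab⟩ := (Nat.not_prime_iff_exists_mul_eq (by omega)).mp hnp
    refine ⟨a, b, ?_, ?_, hab.symm⟩
    · by_contra h
      interval_cases a <;> omega
    · by_contra h
      interval_cases b <;> omega
  have hd1 : 1 ≤ d := by omega
  choose P hfact hm hdeg hr hb hD using fun t : ℕ => exists_family_member hd he t
  choose r hrinj hroot using hr
  choose β hβ using hb
  have hfact' : ∀ t, Fact (Irreducible (ratPoly (P t))) := hfact
  have htr : ∀ t, IsTotallyReal (rootField (P t)) :=
    fun t => isTotallyReal_rootField (hm t) (hdeg t) (hrinj t) (hroot t)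
  let σ : ∀ t, Fin (d * e) ≃ (rootField (P t) →+* ℝ) :=
    fun t => realEquiv (hm t) (hdeg t) (hrinj t) (hroot t)
  have hn' : ∀ t, Module.finrank ℚ (rootField (P t)) = d * e := by
    intro t
    rw [← hdeg t]
    convert finrank_rootField (P := P t) (hm t)
  have hpirr := basePoly_irreducible hd1
  have hpm := basePoly_monic hd1
  have hpd : (basePoly d).natDegree = d := basePoly_natDegree d
  have hrat : ∀ t, β t ∉ Set.range (algebraMap ℚ (rootField (P t))) := by
    intro t h
    have hmin : (basePoly d).map (Int.castRingHom ℚ) = minpoly ℚ (β t) := by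
      refine minpoly.eq_of_irreducible_of_monic hpirr ?_ (hpm.map _)
      have : (Int.castRingHom ℚ) = algebraMap ℤ ℚ := rfl
      rw [this, aeval_map_algebraMap]
      exact hβ t
    have h1 : (minpoly ℚ (β t)).natDegree = 1 := minpoly.natDegree_eq_one_iff.mpr h
    rw [← hmin, hpm.natDegree_map, hpd] at h1
    omega
  have hint : ∀ t, IsIntegral ℤ (β t) := fun t => ⟨basePoly d, hpm, hβ t⟩
  -- the bound
  set C : ℝ := ∑ x ∈ ((basePoly d).aroots ℝ).toFinset, |x| with hC
  have hbound : ∀ t j, |σ t j (β t)| ≤ C := by
    intro t j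
    have h0 : aeval (σ t j (β t)) (basePoly d) = 0 := by
      have := congrArg (σ t j) (hβ t)
      rw [map_zero] at this
      rw [← this]
      have h2 := aeval_algHom_apply ((σ t j).toIntAlgHom) (β t) (basePoly d)
      exact h2
    refine Finset.single_le_sum (f := fun x => |x|) (fun _ _ => abs_nonneg _) ?_
    rw [Multiset.mem_toFinset, mem_aroots]
    exact ⟨hpm.ne_zero, h0⟩
  refine ⟨fun t => rootField (P t), inferInstance, inferInstance, htr, σ, basePoly d, hn', hpm,
    hpirr, by omega, by rw [hpd]; nlinarith, fun t => ⟨β t, hβ t⟩, ?_,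
    fun t => packetOrbits_nonempty (σ t) (hn' t) (isOrder_maximalOrder _), ?_⟩
  · refine tendsto_atTop_mono (fun t => ?_) (tendsto_natCast_atTop_atTop (R := ℤ))
    exact (hD t).le
  · exact noEquidistribution_of_bounded_element (fun t => rootField (P t)) hn' σ _
      (fun t => isOrder_maximalOrder _) C
      (Frequently.of_forall fun t => ⟨β t, hint t, hrat t, hbound t⟩)

end Vale.Agent.Lib.P007
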