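import Vale.Agent.Lib.P007.Core

open MeasureTheory Filter Topology

noncomputable section

namespace Vale.Agent.Lib.P007

variable {n : ℕ} {K : Type} [Field K]

/-- Every point of a packet has a lattice invariant under `diag(σ_j α)`, for each `α ∈ O`. -/
lemma packetOrbits_subset_Zset (σ : Fin n → K →+* ℝ) (O : Subring K) {α : K} (hα : α ∈ O) :
    packetOrbits σ O ⊆ Zset (fun j => σ j α) := by
  rintro x ⟨g, rfl, I, w, u, -, hL⟩
  refine ⟨g, ?_, rfl⟩
  -- each row of `g` times `D` lies in the lattice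
  have hrow : ∀ i, ∃ a : Fin n → ℤ, ∀ j, ((g : Matrix (Fin n) (Fin n) ℝ) i j) * σ j α =
      ∑ k, (a k : ℝ) * (g : Matrix (Fin n) (Fin n) ℝ) k j := by
    intro i
    have h1 : (g : Matrix (Fin n) (Fin n) ℝ) i ∈ (rowLattice g : Set (Fin n → ℝ)) :=
      Submodule.subset_span ⟨i, rfl⟩
    rw [hL] at h1
    obtain ⟨y, hy, hy'⟩ := h1
    have h2 : (fun j => (g : Matrix (Fin n) (Fin n) ℝ) i j * σ j α) ∈
        (rowLattice g : Set (Fin n → ℝ)) := by
      rw [hL]
      refine ⟨α * y, ?_, fun j => ?_⟩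
      · have := (I : FractionalIdeal (nonZeroDivisors O) K).coeToSubmodule.smul_mem
          (⟨α, hα⟩ : O) hy
        simpa [Subring.smul_def] using this
      · simp only
        rw [hy' j, map_mul]
        ring
    obtain ⟨a, ha⟩ := (Submodule.mem_span_range_iff_exists_fun ℤ).mp h2
    refine ⟨a, fun j => ?_⟩
    have := congrFun ha j
    simp only [Finset.sum_apply, zsmul_eq_mul] at this
    exact this.symm
  choose a ha using hrow
  refine ⟨Matrix.of a, ?_⟩
  ext i j
  rw [Matrix.mul_diagonal, Matrix.mul_apply]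
  simpa using ha i j


open Polynomial in
/-- A finite set of real numbers containing all conjugates of all algebraic integers of degree
at most `n` whose conjugates are bounded by `C`, uniformly in the totally real field. -/
lemma exists_finite_conjugates (n : ℕ) (C : ℝ) :
    ∃ T : Set ℝ, T.Finite ∧ ∀ (K : Type) [Field K] [NumberField K] [NumberField.IsTotallyReal K],
      Module.finrank ℚ K = n → ∀ x : K, IsIntegral ℤ x → (∀ τ : K →+* ℝ, |τ x| ≤ C) →
        ∀ τ : K →+* ℝ, τ x ∈ T := by
  classical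
  let B : ℤ := Nat.ceil (max C 1 ^ n * (n.choose (n / 2)))
  refine ⟨_, bUnion_roots_finite (Int.castRingHom ℝ) n (Set.finite_Icc (-B) B), ?_⟩
  intro K _ _ _ hn x hx hC τ
  have hbd : ∀ φ : K →+* ℂ, ‖φ x‖ ≤ C := by
    intro φ
    have hreal := NumberField.IsTotallyReal.complexEmbedding_isReal φ
    have : φ x = ((hreal.embedding x : ℝ) : ℂ) := (hreal.coe_embedding_apply x).symm
    rw [this, Complex.norm_real]
    exact hC _
  have h_map := minpoly.isIntegrallyClosed_eq_field_fractions' ℚ hx
  simp only [Set.mem_iUnion]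
  refine ⟨minpoly ℤ x, ⟨?_, fun i => ?_⟩, ?_⟩
  · rw [← (minpoly.monic hx).natDegree_map (algebraMap ℤ ℚ), ← h_map, ← hn]
    exact minpoly.natDegree_le x
  · rw [Set.mem_Icc, ← abs_le, ← @Int.cast_le ℝ]
    have h3 := NumberField.Embeddings.coeff_bdd_of_norm_le (A := ℂ) hbd i
    rw [hn] at h3
    refine (Eq.trans_le ?_ h3).trans (Nat.le_ceil _)
    rw [h_map, coeff_map, eq_intCast, Int.norm_cast_rat, Int.norm_eq_abs, Int.cast_abs]
  · simp only [Finset.mem_coe, Multiset.mem_toFinset]
    rw [Polynomial.mem_roots]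
    · have : aeval x (minpoly ℤ x) = 0 := minpoly.aeval ℤ x
      have h4 := congrArg τ this
      rw [map_zero, Polynomial.aeval_def, Polynomial.hom_eval₂] at h4
      rw [Polynomial.IsRoot.def, Polynomial.eval_map]
      have h5 : τ.comp (algebraMap ℤ K) = Int.castRingHom ℝ := RingHom.ext_int _ _
      rw [h5] at h4
      exact h4
    · exact ((minpoly.monic hx).map _).ne_zero

/-- Pigeonhole for `∃ᶠ` and a finite set. -/
lemma exists_frequently_of_finite {ι β : Type*} {l : Filter ι} {S : Set β} (hS : S.Finite)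
    {R : ι → β → Prop} (h : ∃ᶠ i in l, ∃ d ∈ S, R i d) : ∃ d ∈ S, ∃ᶠ i in l, R i d := by
  by_contra hcon
  push Not at hcon
  have h1 : ∀ᶠ i in l, ∀ d ∈ S, ¬ R i d :=
    (Filter.eventually_all_finite hS).mpr fun d hd => by
      simpa using hcon d hd
  refine h (h1.mono fun i hi => ?_)
  rintro ⟨d, hd, hR⟩
  exact hi d hd hR

/-- If all complex conjugates of `α` coincide, then `α` is rational. -/
lemma rational_of_conj_eq [NumberField K] {α : K} {c : ℂ} (h : ∀ φ : K →+* ℂ, φ α = c) :
    α ∈ Set.range (algebraMap ℚ K) := by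
  classical
  obtain ⟨φ₀⟩ : Nonempty (K →+* ℂ) := inferInstance
  have htr := trace_eq_sum_embeddings (K := ℚ) (L := K) ℂ (x := α)
  have h1 : ∑ τ : K →ₐ[ℚ] ℂ, τ α = (Module.finrank ℚ K : ℂ) * c := by
    have : ∀ τ : K →ₐ[ℚ] ℂ, τ α = c := fun τ => h τ.toRingHom
    simp only [this, Finset.sum_const, Finset.card_univ, AlgHom.card, nsmul_eq_mul]
  rw [h1] at htr
  have hpos : (Module.finrank ℚ K : ℂ) ≠ 0 := by
    exact_mod_cast (Module.finrank_pos (R := ℚ) (M := K)).ne'
  refine ⟨Algebra.trace ℚ K α / Module.finrank ℚ K, ?_⟩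
  apply φ₀.injective
  rw [h φ₀, eq_ratCast (algebraMap ℚ K), map_ratCast]
  rw [eq_ratCast (algebraMap ℚ ℂ)] at htr
  push_cast
  rw [htr]
  field_simp

/-- A non-rational element of a totally real field has two distinct conjugates. -/
lemma exists_ne_of_not_rational [NumberField K] [NumberField.IsTotallyReal K] {α : K}
    (hα : α ∉ Set.range (algebraMap ℚ K)) (σ : Fin n ≃ (K →+* ℝ)) :
    ∃ a b, σ a α ≠ σ b α := by
  by_contra hcon
  push Not at hcon
  apply hα
  obtain ⟨φ₀⟩ : Nonempty (K →+* ℂ) := inferInstance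
  apply rational_of_conj_eq (c := φ₀ α)
  intro φ
  have h1 := NumberField.IsTotallyReal.complexEmbedding_isReal φ
  have h2 := NumberField.IsTotallyReal.complexEmbedding_isReal φ₀
  have h3 := hcon (σ.symm h1.embedding) (σ.symm h2.embedding)
  have h4 : h1.embedding α = h2.embedding α := by simpa using h3
  rw [← h1.coe_embedding_apply, ← h2.coe_embedding_apply, h4]

/-- Elements of an order are integral over `ℤ`. -/
lemma isIntegral_of_mem_order [NumberField K] {O : Subring K} (hO : IsOrder O) {α : K}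
    (hα : α ∈ O) : IsIntegral ℤ α := by
  have : Module.Finite ℤ O := hO.1
  have h1 : IsIntegral ℤ (⟨α, hα⟩ : O) := Algebra.IsIntegral.isIntegral _
  exact h1.map O.subtype.toIntAlgHom

/-- **The obstruction.**  Let `(K_i, O_i, σ_i)` be totally real fields of degree `n` with orders and
orderings of their real embeddings.  If, for infinitely many `i`, the order `O_i` contains a
non-rational element all of whose conjugates are bounded by a fixed `C`, then measures carried by the
packets cannot converge to an invariant probability measure on `X_n`. -/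
theorem not_tendsto_of_bounded_element
    (K : ℕ → Type) [∀ i, Field (K i)] [∀ i, NumberField (K i)]
    [∀ i, NumberField.IsTotallyReal (K i)] (hdeg : ∀ i, Module.finrank ℚ (K i) = n)
    (σ : ∀ i, Fin n ≃ (K i →+* ℝ)) (O : ∀ i, Subring (K i)) (hO : ∀ i, IsOrder (O i)) (C : ℝ)
    (hbdd : ∃ᶠ i in atTop, ∃ α ∈ O i, α ∉ Set.range (algebraMap ℚ (K i)) ∧ ∀ j, |σ i j α| ≤ C)
    (μ : ℕ → Measure (X n)) (hμ : ∀ i, ∀ᵐ x ∂(μ i), x ∈ packetOrbits (σ i) (O i))
    (m : Measure (X n)) [IsProbabilityMeasure m] (hm : IsInvariant m) :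
    ¬ ∀ f : CompactlySupportedContinuousMap (X n) ℝ,
      Tendsto (fun i => ∫ x, f x ∂(μ i)) atTop (𝓝 (∫ x, f x ∂m)) := by
  classical
  obtain ⟨T, hT, hTmem⟩ := exists_finite_conjugates n C
  -- the finite set of possible vectors of conjugates, with two different coordinates
  let S : Set (Fin n → ℝ) := (Set.pi Set.univ fun _ => T) ∩ {D | ∃ a b, D a ≠ D b}
  have hS : S.Finite := (Set.Finite.pi fun _ => hT).subset Set.inter_subset_left
  have hfreq : ∃ᶠ i in atTop, ∃ D ∈ S, ∃ α ∈ O i, ∀ j, σ i j α = D j := by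
    refine hbdd.mono fun i hi => ?_
    obtain ⟨α, hα, hr, hb⟩ := hi
    refine ⟨fun j => σ i j α, ⟨fun j _ => ?_, exists_ne_of_not_rational hr (σ i)⟩, α, hα,
      fun _ => rfl⟩
    refine hTmem (K i) (hdeg i) α (isIntegral_of_mem_order (hO i) hα) (fun τ => ?_) _
    have := hb ((σ i).symm τ)
    simpa using this
  obtain ⟨D, hDS, hD⟩ := exists_frequently_of_finite hS hfreq
  obtain ⟨a, b, hab⟩ := hDS.2
  refine not_tendsto_of_frequently hab (hD.mono fun i hi => ?_) hm
  obtain ⟨α, hα, hαD⟩ := hi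
  filter_upwards [hμ i] with x hx
  have h1 := packetOrbits_subset_Zset (σ i) (O i) hα hx
  have h2 : (fun j => σ i j α) = D := funext hαD
  rwa [h2] at h1

end Vale.Agent.Lib.P007
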