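import Mathlib

open Polynomial

noncomputable section

namespace Vale.Agent.Lib.P007

/-- The polynomial `∏_{j<d} (X - M (j+1))`. -/
def nodePoly (d : ℕ) (M : ℤ) : ℤ[X] := ∏ j ∈ Finset.range d, (X - C (M * ((j : ℤ) + 1)))

lemma nodePoly_monic (d : ℕ) (M : ℤ) : (nodePoly d M).Monic :=
  monic_prod_of_monic _ _ fun _ _ => monic_X_sub_C _

lemma nodePoly_natDegree (d : ℕ) (M : ℤ) : (nodePoly d M).natDegree = d := by
  unfold nodePoly
  rw [natDegree_prod_of_monic _ _ fun j _ => monic_X_sub_C _]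
  simp only [natDegree_X_sub_C, Finset.sum_const, Finset.card_range, smul_eq_mul, mul_one]

lemma nodePoly_eval (d : ℕ) (M : ℤ) (x : ℝ) :
    aeval x (nodePoly d M) = ∏ j ∈ Finset.range d, (x - M * ((j : ℝ) + 1)) := by
  unfold nodePoly
  rw [map_prod]
  refine Finset.prod_congr rfl fun j _ => ?_
  simp

/-- Sign and size of `∏_{j<d} (x - M (j+1))` at the half-integer points `x = M (k + 1/2)`. -/
lemma node_sign (M : ℝ) (hM : 0 < M) (k d : ℕ) (hk : k ≤ d) :
    (M / 2) ^ d ≤ (-1 : ℝ) ^ (d - k) *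
      ∏ j ∈ Finset.range d, (M * ((k : ℝ) + 1 / 2) - M * ((j : ℝ) + 1)) := by
  induction d, hk using Nat.le_induction with
  | base =>
    simp only [Nat.sub_self, pow_zero, one_mul]
    calc (M / 2) ^ k = ∏ _j ∈ Finset.range k, (M / 2) := by
          rw [Finset.prod_const, Finset.card_range]
      _ ≤ _ := by
        refine Finset.prod_le_prod (fun _ _ => by positivity) fun j hj => ?_
        have hj' : (j : ℝ) + 1 ≤ k := by
          have := Finset.mem_range.mp hj
          exact_mod_cast this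
        nlinarith
  | succ d hd ih =>
    rw [Finset.prod_range_succ, Nat.succ_sub hd, pow_succ, pow_succ]
    have hd' : (k : ℝ) ≤ d := by exact_mod_cast hd
    have h1 : M / 2 ≤ -(M * ((k : ℝ) + 1 / 2) - M * ((d : ℝ) + 1)) := by nlinarith
    have h2 : (0 : ℝ) ≤ (M / 2) ^ d := by positivity
    have h3 : (M / 2) ^ d * (M / 2) ≤ ((-1 : ℝ) ^ (d - k) *
        ∏ j ∈ Finset.range d, (M * ((k : ℝ) + 1 / 2) - M * ((j : ℝ) + 1))) *
        (-(M * ((k : ℝ) + 1 / 2) - M * ((d : ℝ) + 1))) :=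
      mul_le_mul ih h1 (by positivity) (h2.trans ih)
    calc _ ≤ _ := h3
      _ = _ := by ring

/-- Intermediate value theorem for a sign change. -/
lemma exists_root_of_sign_change {F : ℝ → ℝ} (hF : Continuous F) {u v : ℝ} (huv : u < v)
    (h : F u * F v < 0) : ∃ c ∈ Set.Ioo u v, F c = 0 := by
  rcases mul_neg_iff.mp h with ⟨h1, h2⟩ | ⟨h1, h2⟩
  · exact intermediate_value_Ioo' huv.le hF.continuousOn ⟨h2, h1⟩
  · exact intermediate_value_Ioo huv.le hF.continuousOn ⟨h1, h2⟩

/-- Between two consecutive half-integer points the product takes every value of small size. -/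
lemma node_hits (M : ℝ) (hM : 0 < M) {k d : ℕ} (hk : k < d) {y : ℝ} (hy : |y| < (M / 2) ^ d) :
    ∃ r ∈ Set.Ioo (M * ((k : ℝ) + 1 / 2)) (M * ((k : ℝ) + 1 + 1 / 2)),
      ∏ j ∈ Finset.range d, (r - M * ((j : ℝ) + 1)) = y := by
  have hc : Continuous fun x : ℝ => (∏ j ∈ Finset.range d, (x - M * ((j : ℝ) + 1))) - y := by
    fun_prop
  have h1 := node_sign M hM k d hk.le
  have h2 := node_sign M hM (k + 1) d hk
  have hsgn : (-1 : ℝ) ^ (d - k) = - (-1 : ℝ) ^ (d - (k + 1)) := by
    have : d - k = (d - (k + 1)) + 1 := by omega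
    rw [this, pow_succ]; ring
  rw [hsgn] at h1
  push_cast at h2
  set s : ℝ := (-1 : ℝ) ^ (d - (k + 1)) with hs
  have hs' : s = 1 ∨ s = -1 := neg_one_pow_eq_or ℝ _
  set A := ∏ j ∈ Finset.range d, (M * ((k : ℝ) + 1 / 2) - M * ((j : ℝ) + 1)) with hA
  set B := ∏ j ∈ Finset.range d, (M * ((k : ℝ) + 1 + 1 / 2) - M * ((j : ℝ) + 1)) with hB
  have hlt : M * ((k : ℝ) + 1 / 2) < M * ((k : ℝ) + 1 + 1 / 2) := by nlinarith
  obtain ⟨r, hr, hr0⟩ := exists_root_of_sign_change hc hlt (by
    rw [abs_lt] at hy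
    rcases hs' with h | h <;> rw [h] at h1 h2
    · have hA' : A < y := by linarith
      have hB' : y < B := by linarith
      exact mul_neg_of_neg_of_pos (by linarith) (by linarith)
    · have hA' : y < A := by linarith
      have hB' : B < y := by linarith
      exact mul_neg_of_pos_of_neg (by linarith) (by linarith))
  exact ⟨r, hr, by simpa [sub_eq_zero] using hr0⟩

/-- The Eisenstein polynomial `f = ∏_{j<d} (X - 4 (j+1)) + 2`. -/
def basePoly (d : ℕ) : ℤ[X] := nodePoly d 4 + C 2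

/-- The spacing `M = 4 (4 d + 3)`, large enough for the composite polynomial to be real-rooted. -/
def spacing (d : ℕ) : ℤ := 4 * (4 * (d : ℤ) + 3)

/-- The polynomial `g = ∏_{k<e} (X - M (k+1))`. -/
def outerPoly (d e : ℕ) : ℤ[X] := nodePoly e (spacing d)

/-- The polynomial `P = f ∘ g`, of degree `d e`. -/
def compPoly (d e : ℕ) : ℤ[X] := (basePoly d).comp (outerPoly d e)

lemma basePoly_natDegree (d : ℕ) : (basePoly d).natDegree = d := by
  unfold basePoly
  rw [natDegree_add_C, nodePoly_natDegree]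

lemma basePoly_monic {d : ℕ} (hd : 1 ≤ d) : (basePoly d).Monic := by
  unfold basePoly
  refine (nodePoly_monic d 4).add_of_left ?_
  rw [degree_C (by norm_num), degree_eq_natDegree (nodePoly_monic d 4).ne_zero, nodePoly_natDegree]
  exact_mod_cast hd

lemma nodePoly_mod_four (d : ℕ) {M : ℤ} (hM : (4 : ℤ) ∣ M) :
    (nodePoly d M).map (Int.castRingHom (ZMod 4)) = X ^ d := by
  unfold nodePoly
  rw [Polynomial.map_prod]
  have h0 : ((M : ℤ) : ZMod 4) = 0 := by
    rw [ZMod.intCast_zmod_eq_zero_iff_dvd]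
    exact_mod_cast hM
  have : ∀ j ∈ Finset.range d, (X - C (M * ((j : ℤ) + 1))).map (Int.castRingHom (ZMod 4)) = X := by
    intro j _
    have h1 : Int.castRingHom (ZMod 4) (M * ((j : ℤ) + 1)) = 0 := by
      rw [map_mul, show Int.castRingHom (ZMod 4) M = 0 from h0, zero_mul]
    rw [Polynomial.map_sub, map_X, map_C, h1, map_zero, sub_zero]
  rw [Finset.prod_congr rfl this]
  simp

/-- Eisenstein at `2` for `f ∘ g` when `g` is monic of positive degree and `g ≡ X^e (mod 4)`. -/
lemma irreducible_comp {d e : ℕ} (hd : 1 ≤ d) (he : 1 ≤ e) {g : ℤ[X]} (hg : g.Monic)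
    (hge : g.natDegree = e) (hg4 : g.map (Int.castRingHom (ZMod 4)) = X ^ e) :
    Irreducible (((basePoly d).comp g).map (Int.castRingHom ℚ)) := by
  set Q := (basePoly d).comp g with hQ
  have hQm : Q.Monic := (basePoly_monic hd).comp hg (by omega)
  have hQd : Q.natDegree = d * e := by rw [hQ, natDegree_comp, basePoly_natDegree d, hge]
  have hpos : 0 < d * e := Nat.mul_pos hd he
  have hmod : Q.map (Int.castRingHom (ZMod 4)) = X ^ (d * e) + C 2 := by
    rw [hQ, Polynomial.map_comp, hg4]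
    unfold basePoly
    rw [Polynomial.map_add, nodePoly_mod_four d (dvd_refl 4)]
    simp
    rw [map_ofNat C 2]
    ring
  have hcoeff : ∀ i, ((Q.coeff i : ℤ) : ZMod 4) = ((X ^ (d * e) + C 2 : (ZMod 4)[X]).coeff i) := by
    intro i
    rw [← hmod, coeff_map]
    simp
  have h2prime : (Ideal.span ({2} : Set ℤ)).IsPrime :=
    (Ideal.span_singleton_prime two_ne_zero).mpr Int.prime_two
  have hI : Irreducible Q := by
    refine irreducible_of_eisenstein_criterion h2prime ?_ ?_ ?_ ?_ hQm.isPrimitive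
    · rw [hQm.leadingCoeff, Ideal.mem_span_singleton]
      norm_num
    · intro i hi
      have hi' : i < d * e := by
        rw [← hQd]; exact (Polynomial.coe_lt_degree.mp hi)
      rw [Ideal.mem_span_singleton]
      have h1 := hcoeff i
      rcases Nat.eq_zero_or_pos i with rfl | hi0
      · have h3 : ((Q.coeff 0 - 2 : ℤ) : ZMod 4) = 0 := by
          push_cast
          rw [h1, coeff_add, coeff_X_pow, coeff_C_zero, if_neg (by omega)]
          simp
        rw [ZMod.intCast_zmod_eq_zero_iff_dvd] at h3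
        push_cast at h3
        omega
      · have h3 : ((Q.coeff i : ℤ) : ZMod 4) = 0 := by
          rw [h1, coeff_add, coeff_X_pow, coeff_C, if_neg (by omega), if_neg (by omega)]
          simp
        rw [ZMod.intCast_zmod_eq_zero_iff_dvd] at h3
        push_cast at h3
        omega
    · rw [degree_eq_natDegree hQm.ne_zero, hQd]
      exact_mod_cast hpos
    · rw [Ideal.span_singleton_pow, Ideal.mem_span_singleton]
      have h1 := hcoeff 0
      have h3 : ((Q.coeff 0 - 2 : ℤ) : ZMod 4) = 0 := by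
        push_cast
        rw [h1, coeff_add, coeff_X_pow, coeff_C_zero, if_neg (by omega)]
        simp
      rw [ZMod.intCast_zmod_eq_zero_iff_dvd] at h3
      push_cast at h3
      intro h4
      norm_num at h4
      omega
  exact (IsPrimitive.Int.irreducible_iff_irreducible_map_cast hQm.isPrimitive).mp hI

lemma outerPoly_monic (d e : ℕ) : (outerPoly d e).Monic := nodePoly_monic _ _

lemma outerPoly_natDegree (d e : ℕ) : (outerPoly d e).natDegree = e := nodePoly_natDegree _ _

lemma outerPoly_mod_four (d e : ℕ) :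
    (outerPoly d e).map (Int.castRingHom (ZMod 4)) = X ^ e :=
  nodePoly_mod_four e ⟨4 * (d : ℤ) + 3, rfl⟩

lemma compPoly_monic {d e : ℕ} (hd : 1 ≤ d) (he : 1 ≤ e) : (compPoly d e).Monic :=
  (basePoly_monic hd).comp (outerPoly_monic d e) (by rw [outerPoly_natDegree]; omega)

lemma compPoly_natDegree {d e : ℕ} (hd : 1 ≤ d) : (compPoly d e).natDegree = d * e := by
  unfold compPoly
  rw [natDegree_comp, basePoly_natDegree d, outerPoly_natDegree]

lemma compPoly_irreducible {d e : ℕ} (hd : 1 ≤ d) (he : 1 ≤ e) :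
    Irreducible ((compPoly d e).map (Int.castRingHom ℚ)) :=
  irreducible_comp hd he (outerPoly_monic d e) (outerPoly_natDegree d e) (outerPoly_mod_four d e)

lemma basePoly_irreducible {d : ℕ} (hd : 1 ≤ d) :
    Irreducible ((basePoly d).map (Int.castRingHom ℚ)) := by
  have := irreducible_comp (e := 1) hd le_rfl (g := X) monic_X natDegree_X (by simp)
  simpa using this

/-- Intervals between consecutive half-integer points are pairwise disjoint. -/
lemma eq_of_mem_Ioo_Ioo {M x : ℝ} (hM : 0 < M) {k k' : ℕ}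
    (h : x ∈ Set.Ioo (M * ((k : ℝ) + 1 / 2)) (M * ((k : ℝ) + 1 + 1 / 2)))
    (h' : x ∈ Set.Ioo (M * ((k' : ℝ) + 1 / 2)) (M * ((k' : ℝ) + 1 + 1 / 2))) : k = k' := by
  by_contra hne
  rcases lt_or_gt_of_ne hne with hlt | hlt
  · have : (k : ℝ) + 1 ≤ k' := by exact_mod_cast hlt
    have h1 : M * ((k : ℝ) + 1 + 1 / 2) ≤ M * ((k' : ℝ) + 1 / 2) := by nlinarith
    linarith [h.2, h'.1]
  · have : (k' : ℝ) + 1 ≤ k := by exact_mod_cast hlt
    have h1 : M * ((k' : ℝ) + 1 + 1 / 2) ≤ M * ((k : ℝ) + 1 / 2) := by nlinarith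
    linarith [h.1, h'.2]

/-- The real roots of `f`. -/
lemma basePoly_real_roots {d : ℕ} (hd : 2 ≤ d) (l : Fin d) :
    ∃ y ∈ Set.Ioo ((4 : ℝ) * ((l : ℕ) + 1 / 2)) (4 * (((l : ℕ) : ℝ) + 1 + 1 / 2)),
      aeval y (basePoly d) = 0 := by
  have h2 : |(-2 : ℝ)| < (4 / 2 : ℝ) ^ d := by
    have : (4 : ℝ) ≤ 2 ^ d := by
      calc (4 : ℝ) = 2 ^ 2 := by norm_num
        _ ≤ 2 ^ d := pow_le_pow_right₀ (by norm_num) hd
    norm_num
    linarith
  obtain ⟨y, hy, hy'⟩ := node_hits (M := 4) (by norm_num) l.isLt h2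
  refine ⟨y, hy, ?_⟩
  unfold basePoly
  rw [map_add, nodePoly_eval]
  simp only [aeval_C, Int.cast_ofNat]
  rw [hy']
  simp

/-- `P = f ∘ g` has `d e` distinct real roots. -/
lemma compPoly_real_roots {d e : ℕ} (hd : 2 ≤ d) (he : 1 ≤ e) :
    ∃ r : Fin e × Fin d → ℝ, Function.Injective r ∧ ∀ i, aeval (r i) (compPoly d e) = 0 := by
  have hd0 : (0 : ℝ) ≤ d := by positivity
  choose y hy hy0 using basePoly_real_roots hd
  have hspc : ((spacing d : ℤ) : ℝ) = 4 * (4 * d + 3) := by
    unfold spacing; push_cast; ring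
  set M : ℝ := ((spacing d : ℤ) : ℝ) with hM
  have hMpos : 0 < M := by rw [hspc]; positivity
  have hybd : ∀ l, |y l| < (M / 2) ^ e := by
    intro l
    have h1 := hy l
    have hl : (((l : ℕ) : ℝ) + 1) ≤ d := by exact_mod_cast l.isLt
    have hl0 : (0 : ℝ) ≤ ((l : ℕ) : ℝ) := by positivity
    have h2 : M / 2 ≤ (M / 2) ^ e := by
      refine le_self_pow₀ ?_ (by omega)
      rw [hspc]; nlinarith
    have h3 : |y l| < M / 2 := by
      rw [abs_lt, hspc]
      constructor <;> nlinarith [h1.1, h1.2]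
    linarith
  have hroot : ∀ (p : Fin e × Fin d), ∃ r ∈ Set.Ioo (M * (((p.1 : ℕ) : ℝ) + 1 / 2))
      (M * (((p.1 : ℕ) : ℝ) + 1 + 1 / 2)), ∏ j ∈ Finset.range e, (r - M * ((j : ℝ) + 1)) = y p.2 :=
    fun p => node_hits M hMpos p.1.isLt (hybd p.2)
  choose r hr hr' using hroot
  refine ⟨r, ?_, fun p => ?_⟩
  · rintro ⟨k, l⟩ ⟨k', l'⟩ h
    have h1 : y l = y l' := by
      have e1 := hr' (k, l)
      have e2 := hr' (k', l')
      simp only at e1 e2 h
      rw [← e1, ← e2, h]
    have h2 : l = l' := by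
      have := eq_of_mem_Ioo_Ioo (M := 4) (x := y l) (by norm_num) (k := l) (k' := l')
        (hy l) (by rw [h1]; exact hy l')
      exact Fin.ext this
    have h3 : k = k' := by
      have := eq_of_mem_Ioo_Ioo hMpos (x := r (k, l)) (k := k) (k' := k') (hr (k, l))
        (by rw [h]; exact hr (k', l'))
      exact Fin.ext this
    rw [h2, h3]
  · unfold compPoly
    rw [aeval_comp]
    have h1 : aeval (r p) (outerPoly d e) = y p.2 := by
      unfold outerPoly
      rw [nodePoly_eval]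
      exact hr' p
    rw [h1, hy0]

end Vale.Agent.Lib.P007
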