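import Vale.Agent.Lib.P007.Poly

open Polynomial

noncomputable section

namespace Vale.Agent.Lib.P007

/-- The polynomial `g = y + ∏_{k<e} (X - M (k+1))`. -/
def shiftPoly (y M : ℤ) (e : ℕ) : ℤ[X] := C y + nodePoly e M

/-- The polynomial `f ∘ g`. -/
def famPoly (d e : ℕ) (y M : ℤ) : ℤ[X] := (basePoly d).comp (shiftPoly y M e)

lemma shiftPoly_natDegree (y M : ℤ) (e : ℕ) : (shiftPoly y M e).natDegree = e := by
  unfold shiftPoly
  rw [add_comm, natDegree_add_C, nodePoly_natDegree]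

lemma shiftPoly_monic (y M : ℤ) {e : ℕ} (he : 1 ≤ e) : (shiftPoly y M e).Monic := by
  unfold shiftPoly
  rw [add_comm]
  refine (nodePoly_monic e M).add_of_left ?_
  by_cases hy : y = 0
  · simp only [hy, map_zero, degree_zero]
    rw [degree_eq_natDegree (nodePoly_monic e M).ne_zero]
    exact WithBot.bot_lt_coe _
  · rw [degree_C hy, degree_eq_natDegree (nodePoly_monic e M).ne_zero, nodePoly_natDegree]
    exact_mod_cast he

lemma shiftPoly_mod_four {y M : ℤ} (hy : (4 : ℤ) ∣ y) (hM : (4 : ℤ) ∣ M) (e : ℕ) :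
    (shiftPoly y M e).map (Int.castRingHom (ZMod 4)) = X ^ e := by
  unfold shiftPoly
  rw [Polynomial.map_add, nodePoly_mod_four e hM, map_C]
  have h0 : (Int.castRingHom (ZMod 4)) y = 0 := by
    simp only [eq_intCast]
    rw [ZMod.intCast_zmod_eq_zero_iff_dvd]
    exact_mod_cast hy
  rw [h0]
  simp

lemma famPoly_monic {d e : ℕ} (hd : 1 ≤ d) (he : 1 ≤ e) (y M : ℤ) : (famPoly d e y M).Monic :=
  (basePoly_monic hd).comp (shiftPoly_monic y M he) (by rw [shiftPoly_natDegree]; omega)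

lemma famPoly_natDegree (d e : ℕ) (y M : ℤ) : (famPoly d e y M).natDegree = d * e := by
  unfold famPoly
  rw [natDegree_comp, basePoly_natDegree, shiftPoly_natDegree]

lemma famPoly_irreducible {d e : ℕ} (hd : 1 ≤ d) (he : 1 ≤ e) {y M : ℤ} (hy : (4 : ℤ) ∣ y)
    (hM : (4 : ℤ) ∣ M) : Irreducible ((famPoly d e y M).map (Int.castRingHom ℚ)) :=
  irreducible_comp hd he (shiftPoly_monic y M he) (shiftPoly_natDegree y M e)
    (shiftPoly_mod_four hy hM e)

/-- `f ∘ g` has `d e` distinct real roots when the spacing `M` is large. -/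
lemma famPoly_real_roots {d e : ℕ} (hd : 2 ≤ d) (he : 1 ≤ e) {y M : ℤ}
    (hMb : |y| + 4 * d + 3 ≤ M / 2 ∧ (2 : ℤ) ∣ M) :
    ∃ r : Fin e × Fin d → ℝ, Function.Injective r ∧ ∀ i, aeval (r i) (famPoly d e y M) = 0 := by
  have hd0 : (0 : ℝ) ≤ d := by positivity
  choose z hz hz0 using basePoly_real_roots hd
  obtain ⟨hb, M', hM'⟩ := hMb
  have hM2 : M / 2 = M' := by omega
  rw [hM2] at hb
  set Mr : ℝ := (M : ℝ) with hMr
  have hMr' : Mr / 2 = (M' : ℝ) := by
    rw [hMr, hM']; push_cast; ring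
  have hb' : |(y : ℝ)| + 4 * d + 3 ≤ (M' : ℝ) := by
    have : ((|y| + 4 * (d : ℤ) + 3 : ℤ) : ℝ) ≤ (M' : ℝ) := by exact_mod_cast hb
    push_cast at this
    exact this
  have hM'pos : (1 : ℝ) ≤ (M' : ℝ) := by
    have := abs_nonneg (y : ℝ)
    linarith
  have hMpos : 0 < Mr := by
    have : Mr = 2 * (M' : ℝ) := by rw [← hMr']; ring
    rw [this]; linarith
  have hbd : ∀ l, |z l - y| < (Mr / 2) ^ e := by
    intro l
    have h1 := hz l
    have hl : (((l : ℕ) : ℝ) + 1) ≤ d := by exact_mod_cast l.isLt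
    have hl0 : (0 : ℝ) ≤ ((l : ℕ) : ℝ) := by positivity
    have h2 : Mr / 2 ≤ (Mr / 2) ^ e := by
      refine le_self_pow₀ ?_ (by omega)
      rw [hMr']; exact hM'pos
    have h3 : |z l - y| < Mr / 2 := by
      rw [hMr']
      have h4 : |z l - y| ≤ |z l| + |(y : ℝ)| := abs_sub _ _
      have h5 : |z l| < 4 * d + 3 := by
        rw [abs_lt]
        constructor <;> nlinarith [h1.1, h1.2]
      linarith
    linarith
  have hroot : ∀ (p : Fin e × Fin d), ∃ r ∈ Set.Ioo (Mr * (((p.1 : ℕ) : ℝ) + 1 / 2))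
      (Mr * (((p.1 : ℕ) : ℝ) + 1 + 1 / 2)),
      ∏ j ∈ Finset.range e, (r - Mr * ((j : ℝ) + 1)) = z p.2 - y :=
    fun p => node_hits Mr hMpos p.1.isLt (hbd p.2)
  choose r hr hr' using hroot
  refine ⟨r, ?_, fun p => ?_⟩
  · rintro ⟨k, l⟩ ⟨k', l'⟩ h
    have h1 : z l = z l' := by
      have e1 := hr' (k, l)
      have e2 := hr' (k', l')
      simp only at e1 e2 h
      rw [h] at e1
      linarith
    have h2 : l = l' := by
      have := eq_of_mem_Ioo_Ioo (M := 4) (x := z l) (by norm_num) (k := l) (k' := l')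
        (hz l) (by rw [h1]; exact hz l')
      exact Fin.ext this
    have h3 : k = k' := by
      have := eq_of_mem_Ioo_Ioo hMpos (x := r (k, l)) (k := k) (k' := k') (hr (k, l))
        (by rw [h]; exact hr (k', l'))
      exact Fin.ext this
    rw [h2, h3]
  · unfold famPoly
    rw [aeval_comp]
    have h1 : aeval (r p) (shiftPoly y M e) = z p.2 := by
      unfold shiftPoly
      rw [map_add, nodePoly_eval, hr' p]
      simp
    rw [h1, hz0]

/-- `∏_{k<e} (X - M (k+1)) ≡ X^e` modulo `M`. -/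
lemma nodePoly_eq (e : ℕ) (M : ℤ) : ∃ H : ℤ[X], nodePoly e M = X ^ e + C M * H := by
  induction e with
  | zero => exact ⟨0, by simp [nodePoly]⟩
  | succ e ih =>
    obtain ⟨H, hH⟩ := ih
    refine ⟨H * X - (X ^ e + C M * H) * C ((e : ℤ) + 1), ?_⟩
    have : nodePoly (e + 1) M = nodePoly e M * (X - C (M * ((e : ℤ) + 1))) := by
      unfold nodePoly
      rw [Finset.prod_range_succ]
    rw [this, hH, C_mul]
    ring

/-- The polynomial relation `f ∘ g = f(y) + ∏_{k<e} (X - M (k+1)) · T`. -/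
lemma famPoly_eq (d e : ℕ) (y M : ℤ) :
    ∃ T : ℤ[X], famPoly d e y M = C ((basePoly d).eval y) + nodePoly e M * T := by
  obtain ⟨T, hT⟩ := X_sub_C_dvd_sub_C_eval (a := y) (p := basePoly d)
  refine ⟨T.comp (shiftPoly y M e), ?_⟩
  have h1 : basePoly d = C ((basePoly d).eval y) + (X - C y) * T := by
    rw [← hT]; ring
  unfold famPoly
  conv_lhs => rw [h1]
  rw [add_comp, C_comp, mul_comp, sub_comp, X_comp, C_comp]
  unfold shiftPoly
  congr 2
  ring

end Vale.Agent.Lib.P007
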