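import Vale.Agent.Lib.P007.PolyMax

open Polynomial

noncomputable section

namespace Vale.Agent.Lib.P007

variable {d : ℕ}

/-- `f` has no integer root. -/
lemma basePoly_eval_ne_zero (hd : 2 ≤ d) (y : ℤ) : (basePoly d).eval y ≠ 0 := by
  intro h
  have h1 : ((basePoly d).map (Int.castRingHom ℚ)).IsRoot ((y : ℤ) : ℚ) := by
    rw [IsRoot.def, eval_intCast_map, Int.cast_id, h, map_zero]
  have h2 := degree_eq_one_of_irreducible_of_root (basePoly_irreducible (d := d) (by omega)) h1
  have h3 : ((basePoly d).map (Int.castRingHom ℚ)).natDegree = 1 := natDegree_eq_of_degree_eq_some h2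
  rw [(basePoly_monic (by omega)).natDegree_map, basePoly_natDegree] at h3
  omega

/-- A Bezout relation for `f` and `f'` with integer polynomials. -/
lemma exists_bezout (hd : 1 ≤ d) : ∃ (a b : ℤ[X]) (D : ℤ), D ≠ 0 ∧
    a * basePoly d + b * derivative (basePoly d) = C D := by
  have hirr := basePoly_irreducible hd
  have hsep : ((basePoly d).map (Int.castRingHom ℚ)).Separable := hirr.separable
  obtain ⟨u, v, huv⟩ := hsep
  obtain ⟨b₁, hb₁, hb₁'⟩ := IsLocalization.integerNormalization_spec (nonZeroDivisors ℤ) u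
  obtain ⟨b₂, hb₂, hb₂'⟩ := IsLocalization.integerNormalization_spec (nonZeroDivisors ℤ) v
  set u' := IsLocalization.integerNormalization (nonZeroDivisors ℤ) u
  set v' := IsLocalization.integerNormalization (nonZeroDivisors ℤ) v
  have hb₁0 : b₁ ≠ 0 := nonZeroDivisors.ne_zero hb₁
  have hb₂0 : b₂ ≠ 0 := nonZeroDivisors.ne_zero hb₂
  refine ⟨C b₂ * u', C b₁ * v', b₁ * b₂, mul_ne_zero hb₁0 hb₂0, ?_⟩
  apply Polynomial.map_injective (Int.castRingHom ℚ) Int.cast_injective
  have e1 : u'.map (Int.castRingHom ℚ) = C (b₁ : ℚ) * u := by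
    have : u'.map (Int.castRingHom ℚ) = b₁ • u := hb₁'
    rw [this, zsmul_eq_mul]
    simp
  have e2 : v'.map (Int.castRingHom ℚ) = C (b₂ : ℚ) * v := by
    have : v'.map (Int.castRingHom ℚ) = b₂ • v := hb₂'
    rw [this, zsmul_eq_mul]
    simp
  rw [derivative_map] at huv
  simp only [Polynomial.map_add, Polynomial.map_mul, Polynomial.map_C, e1, e2]
  simp only [eq_intCast, Int.cast_mul, C_mul]
  linear_combination (C (b₁ : ℚ) * C (b₂ : ℚ)) * huv

/-- Schur's argument: `f` has values divisible by large primes, at multiples of `4`. -/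
lemma exists_large_prime_dvd (hd : 2 ≤ d) (N : ℕ) :
    ∃ (l : ℕ) (y : ℤ), l.Prime ∧ N < l ∧ (4 : ℤ) ∣ y ∧ (l : ℤ) ∣ (basePoly d).eval y := by
  classical
  set f := basePoly d with hf
  set c₀ := f.eval 0 with hc₀
  have hc₀0 : c₀ ≠ 0 := basePoly_eval_ne_zero hd 0
  have hfm : f.Monic := basePoly_monic (by omega)
  have hfd : f.natDegree = d := basePoly_natDegree d
  -- avoid the roots of `(f - c₀) (f + c₀)`
  let g : ℤ[X] := (f - C c₀) * (f + C c₀)
  have hg1 : f - C c₀ ≠ 0 := by
    intro h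
    have h1 : f = C c₀ := sub_eq_zero.mp h
    have h2 : f.natDegree = 0 := by rw [h1, natDegree_C]
    omega
  have hg2 : f + C c₀ ≠ 0 := by
    intro h
    have h1 : f = - C c₀ := eq_neg_of_add_eq_zero_left h
    have h2 : f.natDegree = 0 := by rw [h1, natDegree_neg, natDegree_C]
    omega
  have hg : g ≠ 0 := mul_ne_zero hg1 hg2
  let z : ℤ := 4 * (N.factorial : ℤ) * c₀
  have hz : z ≠ 0 := by
    simp [z, hc₀0, Nat.factorial_ne_zero]
  have hinj : Function.Injective fun t : ℕ => z * (t : ℤ) := by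
    intro s t h
    have : (s : ℤ) = t := mul_left_cancel₀ hz h
    exact_mod_cast this
  obtain ⟨t, ht⟩ := (Set.infinite_range_of_injective hinj).exists_notMem_finset g.roots.toFinset
  obtain ⟨s, rfl⟩ := ht.1
  have hroot : ¬ g.IsRoot (z * (s : ℤ)) := by
    intro h
    exact ht.2 (by simp only [Multiset.mem_toFinset]; exact (mem_roots hg).mpr h)
  set y := z * (s : ℤ) with hy
  have hne1 : f.eval y ≠ c₀ := by
    intro h
    apply hroot
    simp [g, IsRoot.def, h]
  have hne2 : f.eval y ≠ - c₀ := by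
    intro h
    apply hroot
    simp [g, IsRoot.def, h]
  obtain ⟨h, hh⟩ : y - 0 ∣ f.eval y - f.eval 0 := sub_dvd_eval_sub y 0 f
  let w : ℤ := 1 + 4 * (N.factorial : ℤ) * s * h
  have hfw : f.eval y = c₀ * w := by
    have : f.eval y = c₀ + y * h := by
      rw [sub_zero] at hh
      linarith
    rw [this, hy]
    simp only [w, z]
    ring
  have hw1 : w.natAbs ≠ 1 := by
    intro h1
    rcases Int.natAbs_eq w with h2 | h2 <;> rw [h1] at h2 <;> simp at h2
    · apply hne1; rw [hfw, h2, mul_one]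
    · apply hne2; rw [hfw, h2]; ring
  obtain ⟨l, hl, hlw⟩ := Nat.exists_prime_and_dvd hw1
  have hlw' : (l : ℤ) ∣ w := Int.natCast_dvd.mpr hlw
  refine ⟨l, y, hl, ?_, ?_, ?_⟩
  · by_contra hle
    have hle' : l ≤ N := not_lt.mp hle
    have h1 : l ∣ N.factorial := (Nat.Prime.dvd_factorial hl).mpr hle'
    have h2 : (l : ℤ) ∣ 4 * (N.factorial : ℤ) * s * h :=
      Dvd.dvd.mul_right (Dvd.dvd.mul_right (Dvd.dvd.mul_left (by exact_mod_cast h1) _) _) _
    have h3 : (l : ℤ) ∣ 1 := by
      have := dvd_sub hlw' h2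
      simpa [w] using this
    have h4 : l ∣ 1 := by exact_mod_cast h3
    exact hl.one_lt.ne' (Nat.dvd_one.mp h4)
  · refine ⟨(N.factorial : ℤ) * c₀ * s, ?_⟩
    simp only [hy, z]
    ring
  · rw [hfw]
    exact Dvd.dvd.mul_left hlw' _

/-- A value of `f`, at a multiple of `4`, divisible exactly once by a large prime. -/
lemma exists_large_prime_exact (hd : 2 ≤ d) (N : ℕ) :
    ∃ (l : ℕ) (y u : ℤ), l.Prime ∧ N < l ∧ (4 : ℤ) ∣ y ∧ ¬ (l : ℤ) ∣ u ∧
      (basePoly d).eval y = l * u := by
  obtain ⟨a, b, D, hD, hab⟩ := exists_bezout (d := d) (by omega)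
  obtain ⟨l, y, hl, hlN, hy4, hly⟩ := exists_large_prime_dvd hd (max N (max D.natAbs 2))
  have hlN1 : N < l := lt_of_le_of_lt (le_max_left _ _) hlN
  have hlD : D.natAbs < l := lt_of_le_of_lt (le_trans (le_max_left _ _) (le_max_right _ _)) hlN
  have hl2 : 2 < l := lt_of_le_of_lt (le_trans (le_max_right _ _) (le_max_right _ _)) hlN
  have hlp : Prime (l : ℤ) := Nat.prime_iff_prime_int.mp hl
  obtain ⟨u₀, hu₀⟩ := hly
  by_cases h0 : (l : ℤ) ∣ u₀
  · -- the exact divisibility fails at `y`: move to `y + 4 l`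
    obtain ⟨v, hv⟩ := h0
    obtain ⟨k, hk⟩ := binomExpansion (basePoly d) y (4 * (l : ℤ))
    refine ⟨l, y + 4 * l, v * l + (derivative (basePoly d)).eval y * 4 + k * 16 * l,
      hl, hlN1, dvd_add hy4 (Dvd.intro _ rfl), ?_, ?_⟩
    · intro hdvd
      -- then `l` divides `f'(y)`, hence `D`
      have h1 : (l : ℤ) ∣ (derivative (basePoly d)).eval y * 4 := by
        have h2 : (l : ℤ) ∣ v * l + k * 16 * l := by
          exact dvd_add (Dvd.intro_left _ rfl) (Dvd.intro_left _ rfl)
        have h3 := (dvd_add_right h2).mp (by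
          have : v * l + k * 16 * l + (derivative (basePoly d)).eval y * 4 =
            v * l + (derivative (basePoly d)).eval y * 4 + k * 16 * l := by ring
          rw [this]; exact hdvd)
        exact h3
      have h4 : (l : ℤ) ∣ (derivative (basePoly d)).eval y := by
        rcases hlp.dvd_or_dvd h1 with h | h
        · exact h
        · exfalso
          have h5 : l ∣ 4 := by exact_mod_cast h
          have h6 : l = 2 := by
            have h7 : l ≤ 4 := Nat.le_of_dvd (by norm_num) h5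
            interval_cases l <;> first | omega | (exfalso; revert hl; norm_num)
          omega
      have h8 := congrArg (eval y) hab
      rw [eval_add, eval_mul, eval_mul, eval_C] at h8
      have h9 : (l : ℤ) ∣ D := by
        rw [← h8]
        refine dvd_add (Dvd.dvd.mul_left ?_ _) (Dvd.dvd.mul_left h4 _)
        rw [hu₀]; exact Dvd.intro _ rfl
      have h10 : l ∣ D.natAbs := Int.natCast_dvd.mp h9
      have h11 : 0 < D.natAbs := Int.natAbs_pos.mpr hD
      exact absurd (Nat.le_of_dvd h11 h10) (not_le.mpr hlD)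
    · rw [hk, hu₀, hv]
      ring
  · exact ⟨l, y, u₀, hl, hlN1, hy4, h0, hu₀⟩

end Vale.Agent.Lib.P007
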