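import Vale.Agent.Lib.P007.Defs

open MeasureTheory Filter Topology

noncomputable section

namespace Vale.Agent.Lib.P007

variable {n : ℕ}

instance instT2SLR : T2Space (SLR n) :=
  (Matrix.SpecialLinearGroup.isClosedEmbedding_val (n := Fin n) (R := ℝ)).isEmbedding.t2Space

instance instLCMat : LocallyCompactSpace (Matrix (Fin n) (Fin n) ℝ) :=
  inferInstanceAs (LocallyCompactSpace (Fin n → Fin n → ℝ))

instance instLCSLR : LocallyCompactSpace (SLR n) :=
  (Matrix.SpecialLinearGroup.isClosedEmbedding_val (n := Fin n) (R := ℝ)).locallyCompactSpace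

instance instSCMat : SecondCountableTopology (Matrix (Fin n) (Fin n) ℝ) :=
  inferInstanceAs (SecondCountableTopology (Fin n → Fin n → ℝ))

instance instSCSLR : SecondCountableTopology (SLR n) :=
  (Matrix.SpecialLinearGroup.isClosedEmbedding_val (n := Fin n) (R := ℝ)).isEmbedding.secondCountableTopology

instance instPDSLZ : ProperlyDiscontinuousSMul (SLZ n) (SLR n) := by
  apply Subgroup.properlyDiscontinuousSMul_of_tendsto_cofinite
  have hc : IsClosed ((SLZ n : Subgroup (SLR n)) : Set (SLR n)) := Subgroup.isClosed_of_discrete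
  have hd : IsDiscrete ((SLZ n : Subgroup (SLR n)) : Set (SLR n)) := by
    exact ⟨inferInstanceAs (DiscreteTopology (SLZ n))⟩
  exact hc.tendsto_coe_cofinite_of_isDiscrete hd

instance instT2X : T2Space (X n) :=
  inferInstanceAs (T2Space (_root_.Quotient (MulAction.orbitRel (SLZ n) (SLR n))))

lemma isOpenQuotientMap_mk : IsOpenQuotientMap (X.mk : SLR n → X n) :=
  MulAction.isOpenQuotientMap_quotientMk (Γ := SLZ n) (T := SLR n)

instance instLCX : LocallyCompactSpace (X n) :=
  (isOpenQuotientMap_mk (n := n)).locallyCompactSpace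

lemma X.mk_surjective : Function.Surjective (X.mk : SLR n → X n) :=
  (isOpenQuotientMap_mk (n := n)).surjective

lemma X.rightMul_mk (h g : SLR n) : X.rightMul h (X.mk g) = X.mk (g * h) := rfl

lemma X.continuous_rightMul (h : SLR n) : Continuous (X.rightMul h) := by
  have : Continuous ((X.rightMul h) ∘ (X.mk : SLR n → X n)) := by
    have h2 : (X.rightMul h) ∘ (X.mk : SLR n → X n) = X.mk ∘ (fun g => g * h) := rfl
    rw [h2]
    exact (isOpenQuotientMap_mk (n := n)).continuous.comp (continuous_mul_const h)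
  exact (isOpenQuotientMap_mk (n := n)).continuous_comp_iff.mp this

/-- Every nonempty open subset of `X_n` has positive mass under an invariant probability measure. -/
lemma pos_of_isOpen {m : Measure (X n)} [IsProbabilityMeasure m] (hm : IsInvariant m)
    {V : Set (X n)} (hV : IsOpen V) (hne : V.Nonempty) : 0 < m V := by
  classical
  obtain ⟨x₀, hx₀⟩ := hne
  obtain ⟨g₀, rfl⟩ := X.mk_surjective x₀
  -- the open sets `W h = {g | g h ∈ π⁻¹ V}` cover `SL_n(ℝ)`
  let W : SLR n → Set (SLR n) := fun h => (fun g => g * h) ⁻¹' (X.mk ⁻¹' V)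
  have hWo : ∀ h, IsOpen (W h) := fun h =>
    (hV.preimage (isOpenQuotientMap_mk (n := n)).continuous).preimage (continuous_mul_const h)
  obtain ⟨T, hTc, hT⟩ := TopologicalSpace.isOpen_iUnion_countable W hWo
  have hcover : ∀ x : X n, ∃ h ∈ T, X.rightMul h x ∈ V := by
    intro x
    obtain ⟨g, rfl⟩ := X.mk_surjective x
    have : g ∈ ⋃ h, W h := Set.mem_iUnion.mpr ⟨g⁻¹ * g₀, by simpa [W] using hx₀⟩
    rw [← hT] at this
    simp only [Set.mem_iUnion] at this
    obtain ⟨h, hh, hgh⟩ := this
    exact ⟨h, hh, hgh⟩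
  have hinv : ∀ h : SLR n, m (X.rightMul h ⁻¹' V) = m V := by
    intro h
    have h1 : Measurable (X.rightMul h) := (X.continuous_rightMul h).measurable
    have h2 := hm h
    conv_rhs => rw [← h2]
    rw [Measure.map_apply h1 hV.measurableSet]
  by_contra hzero
  have hzero' : m V = 0 := by simpa using hzero
  have huniv : (Set.univ : Set (X n)) ⊆ ⋃ h ∈ T, X.rightMul h ⁻¹' V := by
    intro x _
    obtain ⟨h, hT', hh⟩ := hcover x
    exact Set.mem_biUnion hT' hh
  have : m Set.univ = 0 := by
    refine measure_mono_null huniv ?_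
    rw [measure_biUnion_null_iff hTc]
    intro h _
    rw [hinv, hzero']
  simp at this

end Vale.Agent.Lib.P007
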